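import Crest.Agent.R292.Cover

/-!
Row 292 (S0441): the parametrised lamplighter action on Cantor space and the decoding of `y`.
-/

set_option autoImplicit false

open Filter Set Topology

namespace Crest.Agent.R292

/-- a permutation of `ℕ` with a single orbit `… 5 3 1 0 2 4 …` -/
def sh (i : ℕ) : ℕ := if i % 2 = 0 then i + 2 else if i = 1 then 0 else i - 2

/-- its inverse -/
def shi (i : ℕ) : ℕ := if i % 2 = 1 then i + 2 else if i = 0 then 1 else i - 2

@[simp] theorem sh_shi (i : ℕ) : sh (shi i) = i := by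
  unfold sh shi; grind

@[simp] theorem shi_sh (i : ℕ) : shi (sh i) = i := by
  unfold sh shi; grind

theorem primrec_sh : Primrec sh :=
  Primrec.ite (Primrec.eq.comp (Primrec.nat_mod.comp Primrec.id (Primrec.const 2)) (Primrec.const 0))
    (Primrec.nat_add.comp Primrec.id (Primrec.const 2))
    (Primrec.ite (Primrec.eq.comp Primrec.id (Primrec.const 1)) (Primrec.const 0)
      (Primrec.nat_sub.comp Primrec.id (Primrec.const 2)))

theorem primrec_shi : Primrec shi :=
  Primrec.ite (Primrec.eq.comp (Primrec.nat_mod.comp Primrec.id (Primrec.const 2)) (Primrec.const 1))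
    (Primrec.nat_add.comp Primrec.id (Primrec.const 2))
    (Primrec.ite (Primrec.eq.comp Primrec.id (Primrec.const 0)) (Primrec.const 1)
      (Primrec.nat_sub.comp Primrec.id (Primrec.const 2)))

theorem sh_iter_even (t k : ℕ) : sh^[k] (2 * t) = 2 * (t + k) := by
  induction k with
  | zero => rfl
  | succ k ih =>
    rw [Function.iterate_succ_apply', ih, sh, if_pos (by omega)]
    omega

theorem sh_iter_odd (t : ℕ) : sh^[t + 1] (2 * t + 1) = 0 := by
  induction t with
  | zero => rfl
  | succ t ih =>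
    rw [Function.iterate_succ_apply, sh, if_neg (by omega), if_neg (by omega)]
    exact ih

/-- `y` spread out on (twice) the squares -/
def yt (y : C) : C := fun i =>
  decide (2 * (Nat.sqrt (i / 2) * Nat.sqrt (i / 2)) = i) && y (Nat.sqrt (i / 2))

theorem red_yt {y D : C} (h : Red y D) : Red (yt y) D := by
  have h1 : Primrec fun i : ℕ => Nat.sqrt (i / 2) :=
    Primrec.nat_sqrt.comp (Primrec.nat_div.comp Primrec.id (Primrec.const 2))
  exact (Red.of_computable (Primrec.eq.decide.comp (Primrec.nat_mul.comp (Primrec.const 2)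
    (Primrec.nat_mul.comp h1 h1)) Primrec.id).to_comp).and' (h.query h1.to_comp)

theorem yt_zero (y : C) (j : ℕ) : yt y (sh^[j * j] 0) = y j := by
  have := sh_iter_even 0 (j * j)
  rw [mul_zero, zero_add] at this
  rw [this]
  simp [yt, Nat.sqrt_eq]

theorem yt_nonsq (y : C) {j m : ℕ} (h1 : j * j < m) (h2 : m < (j + 1) * (j + 1)) :
    yt y (2 * m) = false := by
  have : Nat.sqrt m = j := (Nat.eq_sqrt.2 ⟨h1.le, h2⟩).symm
  have h3 : j * j ≠ m := h1.ne
  simp [yt, this, h3]

theorem yt_pos (y : C) {i j : ℕ} (h0 : i ≠ 0) (hj : i < j) : yt y (sh^[j * j] i) = false := by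
  obtain ⟨t, rfl | rfl⟩ := Nat.even_or_odd' i
  · rw [sh_iter_even]
    exact yt_nonsq y (j := j) (by omega) (by nlinarith)
  · obtain ⟨j, rfl⟩ : ∃ j', j = j' + 1 := ⟨j - 1, by omega⟩
    obtain ⟨k, hk⟩ : ∃ k, (j + 1) * (j + 1) = k + (t + 1) :=
      ⟨(j + 1) * (j + 1) - (t + 1), by
        have : t + 1 ≤ (j + 1) * (j + 1) := by nlinarith
        omega⟩
    rw [hk, Function.iterate_add_apply, sh_iter_odd]
    have := sh_iter_even 0 k
    rw [mul_zero, zero_add] at this
    rw [this]
    exact yt_nonsq y (j := j) (by nlinarith) (by omega)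

/-- the action with parameter `a` -/
def F (y a x : C) : C := fun p =>
  xor (cond (a (2 * p.unpair.1)) (x (Nat.pair p.unpair.1 (sh p.unpair.2))) (x p))
    (a (2 * p.unpair.1 + 1) && yt y p.unpair.2)

/-- its inverse -/
def Fi (y a z : C) : C := fun p =>
  cond (a (2 * p.unpair.1))
    (xor (z (Nat.pair p.unpair.1 (shi p.unpair.2)))
      (a (2 * p.unpair.1 + 1) && yt y (shi p.unpair.2)))
    (xor (z p) (a (2 * p.unpair.1 + 1) && yt y p.unpair.2))

theorem Fi_F_col (y : C) {a b : C} (x : C) {p : ℕ} (h0 : a (2 * p.unpair.1) = b (2 * p.unpair.1))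
    (h1 : a (2 * p.unpair.1 + 1) = b (2 * p.unpair.1 + 1)) : Fi y b (F y a x) p = x p := by
  simp only [Fi, F, Nat.unpair_pair, sh_shi, Nat.pair_unpair, h0, h1]
  cases b (2 * p.unpair.1) <;> simp

theorem Fi_F (y a x : C) : Fi y a (F y a x) = x := funext fun _ => Fi_F_col y x rfl rfl

theorem F_Fi (y a z : C) : F y a (Fi y a z) = z := by
  funext p
  simp only [Fi, F, Nat.unpair_pair, shi_sh, Nat.pair_unpair]
  cases a (2 * p.unpair.1) <;> simp

theorem cont_bit (f : Bool → Bool → Bool) (p q : ℕ) : Continuous fun x : C => f (x p) (x q) := by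
  have h1 : Continuous fun x : C => (x p, x q) := (continuous_apply p).prodMk (continuous_apply q)
  have h2 : Continuous fun b : Bool × Bool => f b.1 b.2 := continuous_of_discreteTopology
  exact h2.comp h1

/-- the action as a homeomorphism -/
def Fh (y a : C) : C ≃ₜ C where
  toFun := F y a
  invFun := Fi y a
  left_inv := Fi_F y a
  right_inv := F_Fi y a
  continuous_toFun := continuous_pi fun p =>
    cont_bit (fun b c => xor (cond (a (2 * p.unpair.1)) b c)
      (a (2 * p.unpair.1 + 1) && yt y p.unpair.2)) _ _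
  continuous_invFun := continuous_pi fun p =>
    cont_bit (fun b c => cond (a (2 * p.unpair.1))
      (xor b (a (2 * p.unpair.1 + 1) && yt y (shi p.unpair.2)))
      (xor c (a (2 * p.unpair.1 + 1) && yt y p.unpair.2))) _ _

theorem meas_F (y : C) : Measurable fun p : C × C => F y p.2 p.1 := by
  refine measurable_pi_iff.2 fun p => ?_
  have h1 : Measurable fun q : C × C => ((q.2 (2 * p.unpair.1), q.2 (2 * p.unpair.1 + 1)),
      q.1 (Nat.pair p.unpair.1 (sh p.unpair.2)), q.1 p) := by fun_prop
  exact (measurable_of_finite (fun b : (Bool × Bool) × Bool × Bool =>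
    xor (cond b.1.1 b.2.1 b.2.2) (b.1.2 && yt y p.unpair.2))).comp h1

theorem computable_ul : Computable fun p : ℕ => p.unpair.1 := Computable.fst.comp Computable.unpair
theorem computable_ur : Computable fun p : ℕ => p.unpair.2 := Computable.snd.comp Computable.unpair

theorem red_F {y a x D : C} (hy : Red y D) (ha : Red a D) (hx : Red x D) : Red (F y a x) D :=
  ((ha.query (computable_two_mul.comp computable_ul)).cond'
    (hx.query (Primrec₂.natPair.to_comp.comp computable_ul (primrec_sh.to_comp.comp computable_ur)))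
    hx).xor' ((ha.query (Computable.succ.comp (computable_two_mul.comp computable_ul))).and'
      ((red_yt hy).query computable_ur))

theorem red_Fi {y a z D : C} (hy : Red y D) (ha : Red a D) (hz : Red z D) : Red (Fi y a z) D :=
  (ha.query (computable_two_mul.comp computable_ul)).cond'
    ((hz.query (Primrec₂.natPair.to_comp.comp computable_ul
      (primrec_shi.to_comp.comp computable_ur))).xor'
      ((ha.query (Computable.succ.comp (computable_two_mul.comp computable_ul))).and'
        ((red_yt hy).query (primrec_shi.to_comp.comp computable_ur))))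
    (hz.xor' ((ha.query (Computable.succ.comp (computable_two_mul.comp computable_ul))).and'
      ((red_yt hy).query computable_ur)))

/-- one step -/
def st (y a b : C) : C ≃ₜ C := (Fh y a).trans (Fh y b).symm

theorem st_apply (y a b x : C) : st y a b x = Fi y b (F y a x) := rfl

theorem F_st (y a b x : C) : F y b (st y a b x) = F y a x := F_Fi _ _ _

theorem iter_fix {g : C → C} {p : ℕ} (h : ∀ x, g x p = x p) (k : ℕ) (x : C) :
    g^[k] x p = x p := by
  induction k with
  | zero => rfl
  | succ k ih => rw [Function.iterate_succ_apply', h, ih]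

theorem iter_col {g : C → C} {N : ℕ} {s : ℕ → ℕ}
    (h : ∀ x i, g x (Nat.pair N i) = x (Nat.pair N (s i))) (k : ℕ) (x : C) (i : ℕ) :
    g^[k] x (Nat.pair N i) = x (Nat.pair N (s^[k] i)) := by
  induction k generalizing i with
  | zero => rfl
  | succ k ih => rw [Function.iterate_succ_apply', h, ih, Function.iterate_succ_apply]

/-- the word `σ^k υ σ^{-k}` -/
def word (y a₀ a₁ a₂ : C) (k : ℕ) (x : C) : C :=
  (st y a₁ a₀)^[k] (st y a₂ a₀ ((st y a₀ a₁)^[k] x))

theorem word_col {y a₀ a₁ a₂ : C} {N : ℕ} (h00 : a₀ (2 * N) = false) (h01 : a₀ (2 * N + 1) = false)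
    (h10 : a₁ (2 * N) = true) (h11 : a₁ (2 * N + 1) = false) (h20 : a₂ (2 * N) = false)
    (h21 : a₂ (2 * N + 1) = true) (k : ℕ) (x : C) (i : ℕ) :
    word y a₀ a₁ a₂ k x (Nat.pair N i) = xor (x (Nat.pair N i)) (yt y (sh^[k] i)) := by
  have e1 : ∀ x i, st y a₁ a₀ x (Nat.pair N i) = x (Nat.pair N (sh i)) := by
    intro x i; simp [st_apply, Fi, F, h00, h01, h10, h11]
  have e2 : ∀ x i, st y a₀ a₁ x (Nat.pair N i) = x (Nat.pair N (shi i)) := by
    intro x i; simp [st_apply, Fi, F, h00, h01, h10, h11]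
  have e3 : ∀ x i, st y a₂ a₀ x (Nat.pair N i) = xor (x (Nat.pair N i)) (yt y i) := by
    intro x i; simp [st_apply, Fi, F, h00, h01, h20, h21]
  rw [word, iter_col e1, e3, iter_col e2, Function.LeftInverse.iterate shi_sh k i]

theorem word_fix {y a₀ a₁ a₂ : C} {p : ℕ} (h1 : a₀ (2 * p.unpair.1) = a₁ (2 * p.unpair.1))
    (h2 : a₀ (2 * p.unpair.1 + 1) = a₁ (2 * p.unpair.1 + 1))
    (h3 : a₂ (2 * p.unpair.1) = a₀ (2 * p.unpair.1))
    (h4 : a₂ (2 * p.unpair.1 + 1) = a₀ (2 * p.unpair.1 + 1)) (k : ℕ) (x : C) :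
    word y a₀ a₁ a₂ k x p = x p := by
  rw [word, iter_fix (g := st y a₁ a₀) (fun x => Fi_F_col y x h1.symm h2.symm), st_apply,
    Fi_F_col y _ h3 h4, iter_fix (g := st y a₀ a₁) fun x => Fi_F_col y x h1 h2]

/-- flip one bit -/
def flip (k : ℕ) : C ≃ₜ C where
  toFun x := fun p => xor (x p) (decide (p = k))
  invFun x := fun p => xor (x p) (decide (p = k))
  left_inv x := by funext p; simp
  right_inv x := by funext p; simp
  continuous_toFun := continuous_pi fun p => cont_bit (fun b _ => xor b (decide (p = k))) p p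
  continuous_invFun := continuous_pi fun p => cont_bit (fun b _ => xor b (decide (p = k))) p p

theorem flip_apply (k : ℕ) (x : C) (p : ℕ) : flip k x p = xor (x p) (decide (p = k)) := rfl

theorem flip_flip (k : ℕ) (x : C) : flip k (flip k x) = x := (flip k).left_inv x

theorem flip_ne (k : ℕ) (x : C) : flip k x ≠ x := fun h => by
  have := congrFun h k
  simp [flip_apply] at this

theorem exists_invariant {ι : Type} [Countable ι] (g : ι → C ≃ₜ C) {P : C → Prop}
    (h : ∀ᶠ x in residual C, P x) :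
    ∃ S : Set C, S ∈ residual C ∧ (∀ x ∈ S, P x) ∧ ∀ i, ∀ x ∈ S, g i x ∈ S := by
  refine ⟨{x | ∀ w : List ι, P (w.foldr (fun i z => g i z) x)},
    eventually_countable_forall.2 fun w => ?_, fun x hx => hx [], fun i x hx w => ?_⟩
  · induction w generalizing P with
    | nil => exact h
    | cons i w ih => exact ih (ev_homeo (g i) h)
  · simpa using hx (w ++ [i])

/-! ### decoding -/

theorem computable_iter {α β : Type} [Primcodable α] [Primcodable β] {f : α → ℕ} {g : α → β}
    {h : α → β → β} (hf : Computable f) (hg : Computable g) (hh : Computable₂ h) :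
    Computable fun a => (h a)^[f a] (g a) :=
  (Computable.nat_rec hf hg
    (hh.comp Computable.fst (Computable.snd.comp Computable.snd)).to₂).of_eq fun a => by
    induction f a with
    | zero => rfl
    | succ n ih => rw [Function.iterate_succ_apply', ← ih]

/-- `g` is implemented on the `φ` side, on the set `S`, with the help of the oracle `D` -/
def Impl (φ : C → C) (S : Set C) (D : C) (g : C → C) : Prop :=
  (∀ x ∈ S, g x ∈ S) ∧ ∃ T : List Bool → List Bool → List Bool, Computable₂ T ∧
    ∀ x ∈ S, ∀ t, App (φ x) t → App (φ (g x)) fun n => T (pre D n) (t n)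

theorem impl_of {φ ψ : C → C} {S : Set C} {D y a b : C} {Δ Δ' : List Bool → List Bool}
    (hΔ : Computable Δ) (hΔ' : Computable Δ') (hS : ∀ x ∈ S, st y a b x ∈ S)
    (ha : Red (φ a) D) (hb : Red (φ b) D)
    (h1 : ∀ x ∈ S, Op Δ (join (φ x) (φ a)) (ψ (F y a x)))
    (h2 : ∀ x ∈ S, Op Δ' (join (ψ (F y b x)) (φ b)) (φ x)) : Impl φ S D (st y a b) := by
  obtain ⟨Pa, ha1, ha2⟩ := ha
  obtain ⟨Pb, hb1, hb2⟩ := hb
  refine ⟨hS, fun σ τ => Δ' (ljoin (Δ (ljoin τ (Pa σ))) (Pb σ)),
    hΔ'.comp (primrec_ljoin.to_comp.comp (hΔ.comp (primrec_ljoin.to_comp.comp Computable.snd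
      (ha1.comp Computable.fst))) (hb1.comp Computable.fst)), fun x hx t ht => ?_⟩
  have h3 := h2 _ (hS x hx)
  rw [F_st] at h3
  exact (((ht.join ha2).op (h1 x hx)).join hb2).op h3

theorem app_iter {φ : C → C} {S : Set C} {D : C} {g : C → C}
    {T : List Bool → List Bool → List Bool} (hS : ∀ x ∈ S, g x ∈ S)
    (h : ∀ x ∈ S, ∀ t, App (φ x) t → App (φ (g x)) fun n => T (pre D n) (t n))
    (k : ℕ) {x : C} (hx : x ∈ S) {t : ℕ → List Bool} (ht : App (φ x) t) :
    g^[k] x ∈ S ∧ App (φ (g^[k] x)) fun n => (T (pre D n))^[k] (t n) := by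
  induction k with
  | zero => exact ⟨hx, ht⟩
  | succ k ih =>
    simp only [Function.iterate_succ_apply']
    exact ⟨hS _ ih.1, h _ ih.1 _ ih.2⟩

theorem decode_red {φ : C → C} {S : Set C} {D y x : C} {g₁ g₂ g₃ : C → C}
    (h₁ : Impl φ S D g₁) (h₂ : Impl φ S D g₂) (h₃ : Impl φ S D g₃) (hx : x ∈ S)
    (hD : Red (φ x) D) (m L : ℕ) (β : Bool)
    (h : ∀ j, L ≤ j → g₁^[j * j] (g₂ (g₃^[j * j] x)) ∈ S →
      φ (g₁^[j * j] (g₂ (g₃^[j * j] x))) m = xor β (y j)) : Red y D := by
  obtain ⟨s₁, T₁, c₁, t₁⟩ := h₁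
  obtain ⟨s₂, T₂, c₂, t₂⟩ := h₂
  obtain ⟨s₃, T₃, c₃, t₃⟩ := h₃
  obtain ⟨Γ, c₀, t₀⟩ := hD
  let G : List Bool → ℕ → List Bool := fun σ j =>
    (T₁ σ)^[j * j] (T₂ σ ((T₃ σ)^[j * j] (Γ σ)))
  have hsq : Computable fun p : List Bool × ℕ => p.2 * p.2 :=
    Primrec.nat_mul.to_comp.comp Computable.snd Computable.snd
  have hG : Computable₂ G :=
    computable_iter (h := fun p : List Bool × ℕ => T₁ p.1) hsq
      (c₂.comp Computable.fst (computable_iter (h := fun p : List Bool × ℕ => T₃ p.1) hsq
        (c₀.comp Computable.fst)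
        (c₃.comp (Computable.fst.comp Computable.fst) Computable.snd).to₂))
      (c₁.comp (Computable.fst.comp Computable.fst) Computable.snd).to₂
  have hA : ∀ j, g₁^[j * j] (g₂ (g₃^[j * j] x)) ∈ S ∧
      App (φ (g₁^[j * j] (g₂ (g₃^[j * j] x)))) fun n => G (pre D n) j := by
    intro j
    obtain ⟨e1, e2⟩ := app_iter s₃ t₃ (j * j) hx t₀
    exact app_iter s₁ t₁ (j * j) (s₂ _ e1) (t₂ _ e1 _ e2)
  refine Red.of_search (fun σ j => cond (decide (j < L)) (some ((pre y L).getD j false))
    ((G σ j)[m]?.map (xor β))) ?_ ?_ ?_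
  · exact Computable.cond (Primrec.nat_lt.decide.to_comp.comp Computable.snd (Computable.const L))
      (Computable.option_some.comp ((Primrec.list_getD false).to_comp.comp (Computable.const _)
        Computable.snd))
      (Computable.option_map (Computable.list_getElem?.comp hG (Computable.const m))
        ((Primrec.dom_bool (xor β)).to_comp.comp Computable.snd).to₂)
  · intro n j b hb
    by_cases hj : j < L
    · simp only [hj, decide_true, cond_true, getD_pre y hj, Option.some.injEq] at hb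
      exact hb.symm
    · simp only [hj, decide_false, cond_false, Option.map_eq_some_iff] at hb
      obtain ⟨c, hc, rfl⟩ := hb
      rw [(hA j).2.getElem? hc, h j (not_lt.1 hj) (hA j).1]
      simp
  · intro j
    obtain ⟨n, hn⟩ := (hA j).2.exists_getElem? m
    refine ⟨n, ?_⟩
    by_cases hj : j < L
    · simp [hj]
    · simp only [hj, decide_false, cond_false, hn]
      rfl

end Crest.Agent.R292
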