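import Crest.Agent.R292.Op

/-!
Row 292 (S0441): Baire category in Cantor space.
-/

set_option autoImplicit false

open Filter Set Topology

namespace Crest.Agent.R292

/-- cylinder -/
def cyl (u : C) (N : ℕ) : Set C := {x | ∀ k < N, x k = u k}

theorem isOpen_cyl (u : C) (N : ℕ) : IsOpen (cyl u N) := by
  have : cyl u N = ⋂ k ∈ Finset.range N, (fun x : C => x k) ⁻¹' {u k} := by
    ext x; simp [cyl]
  rw [this]
  exact isOpen_biInter_finset fun k _ => (isOpen_discrete _).preimage (continuous_apply k)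

theorem mem_cyl_self (u : C) (N : ℕ) : u ∈ cyl u N := fun _ _ => rfl

theorem cyl_mono {u v : C} {N M : ℕ} (h : N ≤ M) (hv : v ∈ cyl u N) : cyl v M ⊆ cyl u N :=
  fun _ hx k hk => (hx k (hk.trans_le h)).trans (hv k hk)

theorem exists_cyl_subset {O : Set C} (hO : IsOpen O) {x : C} (hx : x ∈ O) :
    ∃ N, cyl x N ⊆ O := by
  obtain ⟨I, u, h1, h2⟩ := isOpen_pi_iff.1 hO x hx
  refine ⟨I.sup id + 1, fun y hy => h2 fun i hi => ?_⟩
  have : i ≤ I.sup id := Finset.le_sup (f := id) hi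
  rw [hy i (by omega)]
  exact (h1 i hi).2

theorem exists_cyl_prod_subset {O : Set (C × C)} (hO : IsOpen O) {p : C × C} (hp : p ∈ O) :
    ∃ N, cyl p.1 N ×ˢ cyl p.2 N ⊆ O := by
  obtain ⟨U, V, hU, hV, h1, h2, h3⟩ := isOpen_prod_iff.1 hO p.1 p.2 hp
  obtain ⟨N, hN⟩ := exists_cyl_subset hU h1
  obtain ⟨M, hM⟩ := exists_cyl_subset hV h2
  exact ⟨max N M, (prod_mono ((cyl_mono (le_max_left _ _) (mem_cyl_self _ _)).trans hN)
    ((cyl_mono (le_max_right _ _) (mem_cyl_self _ _)).trans hM)).trans h3⟩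

section general

variable {X Y : Type} [TopologicalSpace X] [TopologicalSpace Y]

theorem freq_open [BaireSpace X] {O : Set X} (hO : IsOpen O) (hne : O.Nonempty) :
    ∃ᶠ x in residual X, x ∈ O := fun h => by
  obtain ⟨x, h1, h2⟩ := (dense_of_mem_residual h).inter_open_nonempty O hO hne
  exact h2 h1

theorem freq_exists {ι : Type} [Countable ι] {P : ι → X → Prop}
    (h : ∃ᶠ x in residual X, ∃ i, P i x) : ∃ i, ∃ᶠ x in residual X, P i x := by
  by_contra hc
  simp only [not_exists, not_frequently] at hc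
  exact h ((eventually_countable_forall.2 hc).mono fun x hx ⟨i, hi⟩ => hx i hi)

/-- Kuratowski–Ulam, the easy half -/
theorem kur_ulam [SecondCountableTopology X] {P : X × Y → Prop}
    (h : ∀ᶠ p in residual (X × Y), P p) : ∀ᶠ a in residual Y, ∀ᶠ x in residual X, P (x, a) := by
  obtain ⟨S, h1, h2, h3, h4⟩ := mem_residual_iff.1 h
  obtain ⟨b, hb1, hb2, hb3⟩ := TopologicalSpace.exists_countable_basis X
  have key : ∀ O ∈ S, ∀ᶠ a in residual Y, ∀ᶠ x in residual X, (x, a) ∈ O := by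
    intro O hO
    have : ∀ V ∈ b, ∀ᶠ a in residual Y, ∃ x ∈ V, (x, a) ∈ O := by
      intro V hV
      have hVo : IsOpen V := hb3.isOpen hV
      have hVn : V.Nonempty := nonempty_iff_ne_empty.2 fun h => hb2 (h ▸ hV)
      have e : {a | ∃ x ∈ V, (x, a) ∈ O} = Prod.snd '' (O ∩ V ×ˢ univ) := by
        ext a
        simp only [mem_ofPred_eq, mem_image, mem_inter_iff, mem_prod, mem_univ, and_true,
          Prod.exists, exists_eq_right]
        exact ⟨fun ⟨x, h1, h2⟩ => ⟨x, h2, h1⟩, fun ⟨x, h1, h2⟩ => ⟨x, h2, h1⟩⟩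
      refine residual_of_dense_open (s := {a | ∃ x ∈ V, (x, a) ∈ O}) ?_ ?_
      · rw [e]
        exact isOpenMap_snd _ ((h1 O hO).inter (hVo.prod isOpen_univ))
      · refine dense_iff_inter_open.2 fun W hW hWn => ?_
        obtain ⟨p, hp1, hp2⟩ := (h2 O hO).inter_open_nonempty _ (hVo.prod hW) (hVn.prod hWn)
        exact ⟨p.2, hp1.2, p.1, hp1.1, hp2⟩
    filter_upwards [(eventually_countable_ball hb1).2 this] with a ha
    refine residual_of_dense_open (s := {x | (x, a) ∈ O})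
      ((h1 O hO).preimage (Continuous.prodMk_left a)) (hb3.dense_iff.2 fun V hV _ => ?_)
    obtain ⟨x, hx1, hx2⟩ := ha V hV
    exact ⟨x, hx1, hx2⟩
  filter_upwards [(eventually_countable_ball h3).2 key] with a ha
  filter_upwards [(eventually_countable_ball h3).2 ha] with x hx
  exact h4 fun O hO => hx O hO

theorem freq_prod [SecondCountableTopology X] {P : X → Prop} {Q : Y → Prop}
    (hP : ∃ᶠ x in residual X, P x) (hQ : ∃ᶠ a in residual Y, Q a) :
    ∃ᶠ p in residual (X × Y), P p.1 ∧ Q p.2 := fun h => by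
  obtain ⟨a, h1, h2⟩ := (hQ.and_eventually (kur_ulam h)).exists
  obtain ⟨x, h3, h4⟩ := (hP.and_eventually h2).exists
  exact h4 ⟨h3, h1⟩

/-- a non-meagre Borel set is comeagre in an open set -/
theorem loc_measurable [MeasurableSpace X] [BorelSpace X] {S G : Set X} (hS : MeasurableSet S)
    (h : ∃ᶠ x in residual X, x ∈ S ∧ x ∈ G) :
    ∃ x ∈ G, ∃ O, IsOpen O ∧ x ∈ O ∧ ∀ᶠ y in residual X, y ∈ O → y ∈ S := by
  obtain ⟨O, hO, he⟩ := hS.residualEq_isOpen
  have he' : ∀ᶠ y in residual X, y ∈ S ↔ y ∈ O := eventuallyEq_set.1 he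
  obtain ⟨x, ⟨h1, h2⟩, h3⟩ := (h.and_eventually he').exists
  exact ⟨x, h2, O, hO, h3.1 h1, he'.mono fun y hy => hy.2⟩

theorem ev_homeo (e : X ≃ₜ Y) {P : Y → Prop} (h : ∀ᶠ y in residual Y, P y) :
    ∀ᶠ x in residual X, P (e x) :=
  tendsto_residual_of_isOpenMap e.continuous e.isOpenMap h

end general

theorem freq_cyl (u : C) (N : ℕ) : ∃ᶠ x in residual C, x ∈ cyl u N :=
  freq_open (isOpen_cyl u N) ⟨u, mem_cyl_self u N⟩

/-- a non-meagre set is everywhere non-meagre in some cylinder -/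
theorem exists_everywhere {P : C → Prop} (h : ∃ᶠ x in residual C, P x) :
    ∃ u N, ∀ v ∈ cyl u N, ∀ M, ∃ᶠ x in residual C, P x ∧ x ∈ cyl v M := by
  by_contra hc
  simp only [not_exists, not_forall, not_frequently] at hc
  let S : Set (Set C) := {t | IsOpen t ∧ ∀ᶠ x in residual C, ¬(P x ∧ x ∈ t)}
  obtain ⟨T, hT1, hT2, hT3⟩ := TopologicalSpace.isOpen_sUnion_countable S fun t ht => ht.1
  have h1 : ⋃₀ S ∈ residual C := by
    refine residual_of_dense_open (isOpen_sUnion fun t ht => ht.1)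
      (dense_iff_inter_open.2 fun W hW ⟨u, hu⟩ => ?_)
    obtain ⟨N, hN⟩ := exists_cyl_subset hW hu
    obtain ⟨v, hv, M, hM⟩ := hc u N
    exact ⟨v, hN hv, cyl v M, ⟨isOpen_cyl v M, hM⟩, mem_cyl_self v M⟩
  have h2 := (eventually_countable_ball hT1).2 fun t ht => (hT2 ht).2
  refine h ?_
  filter_upwards [h1, h2] with x hx1 hx2 hP
  rw [← hT3] at hx1
  obtain ⟨t, ht, hxt⟩ := hx1
  exact hx2 t ht ⟨hP, hxt⟩

theorem loc_cyl {S : Set C} (hS : MeasurableSet S) {u : C} {N : ℕ}
    (h : ∃ᶠ x in residual C, x ∈ S ∧ x ∈ cyl u N) :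
    ∃ v ∈ cyl u N, ∃ M, N ≤ M ∧ ∀ᶠ y in residual C, y ∈ cyl v M → y ∈ S := by
  obtain ⟨v, hv, O, hO, hvO, h1⟩ := loc_measurable hS h
  obtain ⟨M, hM⟩ := exists_cyl_subset hO hvO
  exact ⟨v, hv, max N M, le_max_left _ _, h1.mono fun y hy hy' =>
    hy (hM (cyl_mono (le_max_right _ _) (mem_cyl_self _ _) hy'))⟩

theorem loc_cyl_prod {S : Set (C × C)} (hS : MeasurableSet S) {u : C} {N : ℕ}
    (h : ∃ᶠ p in residual (C × C), p ∈ S ∧ p ∈ cyl u N ×ˢ cyl u N) :
    ∃ v ∈ cyl u N, ∃ w ∈ cyl u N, ∃ M, N ≤ M ∧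
      ∀ᶠ a in residual C, a ∈ cyl w M → ∀ᶠ x in residual C, x ∈ cyl v M → (x, a) ∈ S := by
  obtain ⟨p, hp, O, hO, hpO, h1⟩ := loc_measurable hS h
  obtain ⟨M, hM⟩ := exists_cyl_prod_subset hO hpO
  refine ⟨p.1, hp.1, p.2, hp.2, max N M, le_max_left _ _, ?_⟩
  filter_upwards [kur_ulam h1] with a ha ha'
  filter_upwards [ha] with x hx hx'
  exact hx (hM ⟨cyl_mono (le_max_right _ _) (mem_cyl_self _ _) hx',
    cyl_mono (le_max_right _ _) (mem_cyl_self _ _) ha'⟩)

instance : Countable {Γ : List Bool → List Bool // Computable Γ} := countable_ops.to_subtype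

theorem pre_getD (τ : List Bool) : pre (fun i => τ.getD i false) τ.length = τ := by
  apply List.ext_getElem?
  intro i
  rw [getElem?_pre]
  split_ifs with h
  · simp [h]
  · simp [not_lt.1 h]

/-- what is computable from `Y` and non-meagrely many `r` is computable from `Y` -/
theorem red_of_frequently {Z Y : C} (h : ∃ᶠ r in residual C, Red Z (join Y r)) : Red Z Y := by
  obtain ⟨⟨Γ, hΓ⟩, h1⟩ := freq_exists (ι := {Γ : List Bool → List Bool // Computable Γ})
    (P := fun Γ r => Op Γ.1 (join Y r) Z) (h.mono fun r ⟨Γ, h1, h2⟩ => ⟨⟨Γ, h1⟩, h2⟩)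
  obtain ⟨u, N, h2⟩ := exists_everywhere h1
  refine Red.of_search (fun σ j => (Γ (ljoin σ (pre u N ++
    (Encodable.decode (α := List Bool) σ.length.unpair.2).getD [])))[j]?) ?_ ?_ ?_
  · exact Computable.list_getElem?.comp (hΓ.comp (primrec_ljoin.to_comp.comp Computable.fst
      (Computable.list_append.comp (Computable.const _) (Computable.option_getD
        (Computable.decode.comp (Computable.snd.comp (Computable.unpair.comp
          (Computable.list_length.comp Computable.fst)))) (Computable.const []))))) Computable.snd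
  · intro n j b hb
    generalize (Encodable.decode (α := List Bool) (pre Y n).length.unpair.2).getD [] = ρ at hb
    set τ := pre u N ++ ρ with hτ
    have hv : (fun i => τ.getD i false) ∈ cyl u N := fun k hk => by
      dsimp only
      rw [hτ, List.getD_append _ _ _ _ (by simpa using hk), getD_pre u hk]
    obtain ⟨r, hr1, hr2⟩ := (h2 _ hv τ.length).exists
    rw [← pre_getD τ, ← pre_congr hr2, ljoin_pre] at hb
    exact hr1.getElem? hb
  · intro j
    obtain ⟨r, hr1, hr2⟩ := (h2 u (mem_cyl_self u N) N).exists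
    obtain ⟨n₀, hn₀⟩ := eventually_atTop.1 (hr1.2.eventually_gt_atTop j)
    let n := max n₀ N
    refine ⟨Nat.pair n (Encodable.encode ((pre r n).drop N)), ?_⟩
    have e : pre u N ++ (pre r n).drop N = pre r n := by
      rw [← pre_congr hr2, ← min_eq_left (le_max_right n₀ N), ← take_pre,
        min_eq_left (le_max_right n₀ N), List.take_append_drop]
    simp only [length_pre, Nat.unpair_pair, Encodable.encodek, Option.getD_some, e, ljoin_pre,
      min_eq_right (Nat.left_le_pair n _)]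
    have := hn₀ (2 * n) (by have := le_max_left n₀ N; omega)
    simp [this]

end Crest.Agent.R292
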