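import Crest.Agent.R292.Op
import Crest.Prelude.Def_SetDegree

/-!
Row 292 (S0441): `Red` is Turing reducibility of characteristic functions.
-/

set_option autoImplicit false

open Filter Encodable

namespace Crest.Agent.R292

/-- characteristic function -/
def chi (A : C) : ℕ →. ℕ := fun n => Part.some (A n).toNat

/-- total functions recursive in the oracles -/
def RI (O : Set (ℕ →. ℕ)) (f : ℕ → ℕ) : Prop := Nat.RecursiveIn O fun n => Part.some (f n)

namespace RI

variable {O : Set (ℕ →. ℕ)} {f g : ℕ → ℕ}

theorem of_computable (h : Computable f) : RI O f :=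
  (Partrec.nat_iff.1 h.partrec).recursiveIn

theorem comp (hf : RI O f) (hg : RI O g) : RI O fun n => f (g n) :=
  (Nat.RecursiveIn.comp hf hg).of_eq fun n => by simp

theorem pair (hf : RI O f) (hg : RI O g) : RI O fun n => Nat.pair (f n) (g n) :=
  (Nat.RecursiveIn.pair hf hg).of_eq fun n => by simp [Seq.seq]

theorem rec' (a : ℕ) (hg : RI O g) :
    RI O fun n => Nat.rec (motive := fun _ => ℕ) a (fun y i => g (Nat.pair y i)) n := by
  have h1 : RI O fun _ => a := of_computable (Computable.const a)
  have h2 : RI O fun p => g (Nat.unpair p).2 :=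
    hg.comp (of_computable (Computable.snd.comp Computable.unpair))
  have h3 : RI O fun n => Nat.pair 0 n :=
    of_computable (Primrec₂.natPair.to_comp.comp (Computable.const 0) Computable.id)
  refine (Nat.RecursiveIn.comp (Nat.RecursiveIn.prec h1 h2) h3).of_eq fun n => ?_
  simp only [Part.bind_eq_bind, Part.bind_some, Nat.unpair_pair]
  induction n with
  | zero => rfl
  | succ n ih => simp [ih]

theorem find (hf : RI O f) (h : ∀ a, ∃ n, f (Nat.pair a n) = 0) :
    RI O fun a => Nat.find (h a) := by
  refine (Nat.RecursiveIn.rfind hf).of_eq fun a => Part.eq_some_iff.2 ?_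
  rw [Nat.mem_rfind]
  refine ⟨by simp [Nat.find_spec (h a)], fun {m} hm => ?_⟩
  simp [Nat.find_min (h a) hm]

end RI

theorem ri_pre (B : C) : RI {chi B} fun n => encode (pre B n) := by
  have ho : RI {chi B} fun n => (B n).toNat := Nat.RecursiveIn.oracle _ rfl
  let g : ℕ → ℕ := fun m => encode (((decode (α := List Bool) m.unpair.1.unpair.2).getD []) ++
    [decide (m.unpair.2 = 1)])
  have hg : Computable g :=
    Computable.encode.comp (Computable.list_concat.comp
      (Computable.option_getD (Computable.decode.comp (Computable.snd.comp (Computable.unpair.comp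
        (Computable.fst.comp Computable.unpair)))) (Computable.const []))
      (Primrec.eq.decide.to_comp.comp (Computable.snd.comp Computable.unpair)
        (Computable.const 1)))
  have h1 := (RI.of_computable hg).comp ((RI.of_computable Computable.id).pair
    (ho.comp (RI.of_computable (Computable.fst.comp Computable.unpair))))
  have h2 := RI.rec' (encode ([] : List Bool)) h1
  refine Nat.RecursiveIn.of_eq h2 fun n => congrArg Part.some ?_
  induction n with
  | zero => rfl
  | succ n ih =>
    dsimp only at ih ⊢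
    rw [ih, pre_succ]
    simp only [g, id, Nat.unpair_pair, encodek, Option.getD_some]
    cases B n <;> rfl

theorem Red.recursiveIn {A B : C} (h : Red A B) : Nat.RecursiveIn {chi B} (chi A) := by
  obtain ⟨Γ, hΓ, h⟩ := h
  let out : ℕ → Option Bool := fun m =>
    (Γ ((decode (α := List Bool) m.unpair.2).getD []))[m.unpair.1]?
  have hout : Computable out :=
    Computable.list_getElem?.comp (hΓ.comp (Computable.option_getD
      (Computable.decode.comp (Computable.snd.comp Computable.unpair)) (Computable.const [])))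
      (Computable.fst.comp Computable.unpair)
  have hout' : ∀ i n, out (Nat.pair i (encode (pre B n))) = (Γ (pre B n))[i]? := by
    intro i n
    simp [out]
  have hl : RI {chi B} fun m => m.unpair.1 :=
    RI.of_computable (Computable.fst.comp Computable.unpair)
  have hr : RI {chi B} fun m => m.unpair.2 :=
    RI.of_computable (Computable.snd.comp Computable.unpair)
  have h1 : Computable fun m => cond (out m).isSome 0 1 :=
    Computable.cond (Primrec.option_isSome.to_comp.comp hout) (Computable.const 0)
      (Computable.const 1)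
  have h2 := (RI.of_computable h1).comp (hl.pair ((ri_pre B).comp hr))
  have hex : ∀ a, ∃ n, (fun m : ℕ =>
      cond (out (Nat.pair m.unpair.1 (encode (pre B m.unpair.2)))).isSome 0 1) (Nat.pair a n) = 0 := by
    intro a
    obtain ⟨n, hn⟩ := h.exists_getElem? a
    exact ⟨n, by simp only [Nat.unpair_pair, hout', hn]; rfl⟩
  have h3 := h2.find hex
  have h4 : Computable fun m => ((out m).getD false).toNat :=
    (Primrec.dom_bool Bool.toNat).to_comp.comp (Computable.option_getD hout (Computable.const false))
  have h5 := (RI.of_computable h4).comp ((RI.of_computable Computable.id).pair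
    ((ri_pre B).comp h3))
  refine Nat.RecursiveIn.of_eq h5 fun a => congrArg Part.some ?_
  have key : ∀ n, cond (out (Nat.pair (Nat.pair a n).unpair.1
      (encode (pre B (Nat.pair a n).unpair.2)))).isSome 0 1 = 0 →
      ((out (Nat.pair a (encode (pre B n)))).getD false).toNat = (A a).toNat := by
    intro n hs
    simp only [Nat.unpair_pair, hout'] at hs ⊢
    rcases hb : (Γ (pre B n))[a]? with - | b
    · simp [hb] at hs
    · rw [h.getElem? hb]; rfl
  exact key _ (Nat.find_spec (hex a))

/-- `ψ` run on the initial segments of `B` converges to `f` -/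
def Lim (B : C) (ψ : List Bool → ℕ →. ℕ) (f : ℕ →. ℕ) : Prop :=
  (∀ n j v, v ∈ ψ (pre B n) j → v ∈ f j) ∧ ∀ j v, v ∈ f j → ∀ᶠ n in atTop, v ∈ ψ (pre B n) j

theorem exists_lim {B : C} {f : ℕ →. ℕ} (h : Nat.RecursiveIn {chi B} f) :
    ∃ ψ : List Bool → ℕ →. ℕ, Partrec₂ ψ ∧ Lim B ψ f := by
  have base : ∀ f : ℕ →. ℕ, Nat.Partrec f → ∃ ψ : List Bool → ℕ →. ℕ, Partrec₂ ψ ∧ Lim B ψ f :=
    fun f hf => ⟨fun _ => f, (Partrec.nat_iff.2 hf).comp Computable.snd,
      fun _ _ _ h => h, fun _ _ h => Eventually.of_forall fun _ => h⟩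
  induction h with
  | zero => exact base _ .zero
  | succ => exact base _ .succ
  | left => exact base _ .left
  | right => exact base _ .right
  | oracle g hg =>
    obtain rfl : g = chi B := hg
    refine ⟨fun σ j => ((σ[j]?.map Bool.toNat : Option ℕ) : Part ℕ),
      Computable.ofOption (Computable.option_map Computable.list_getElem?
        ((Primrec.dom_bool Bool.toNat).to_comp.comp Computable.snd).to₂), ?_, ?_⟩
    · intro n j v hv
      simp only [getElem?_pre, Part.mem_coe, Option.mem_def] at hv
      split_ifs at hv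
      · simpa [chi, eq_comm] using hv
      · simp at hv
    · intro j v hv
      filter_upwards [eventually_gt_atTop j] with n hn
      rw [getElem?_pre, if_pos hn]
      simpa [chi, eq_comm] using hv
  | @pair f h _ _ ihf ihh =>
    obtain ⟨ψ, h1, h2, h3⟩ := ihf
    obtain ⟨χ, h4, h5, h6⟩ := ihh
    refine ⟨fun σ j => (ψ σ j).bind fun a => (χ σ j).map (Nat.pair a),
      Partrec.bind h1 (Partrec.map (h4.comp (Computable.fst.comp Computable.fst)
        (Computable.snd.comp Computable.fst)) (Primrec₂.natPair.to_comp.comp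
          (Computable.snd.comp Computable.fst) Computable.snd).to₂).to₂, ?_, ?_⟩
    · intro n j v hv
      simp only [Part.mem_bind_iff, Part.mem_map_iff] at hv
      obtain ⟨a, ha, b, hb, rfl⟩ := hv
      simp only [Seq.seq, Part.map_eq_map, Part.bind_eq_bind, Part.mem_bind_iff, Part.mem_map_iff]
      exact ⟨_, ⟨a, h2 _ _ _ ha, rfl⟩, b, h5 _ _ _ hb, rfl⟩
    · intro j v hv
      simp only [Seq.seq, Part.map_eq_map, Part.bind_eq_bind, Part.mem_bind_iff,
        Part.mem_map_iff] at hv
      obtain ⟨_, ⟨a, ha, rfl⟩, b, hb, rfl⟩ := hv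
      filter_upwards [h3 _ _ ha, h6 _ _ hb] with n h1 h2
      simp only [Part.mem_bind_iff, Part.mem_map_iff]
      exact ⟨a, h1, b, h2, rfl⟩
  | @comp f h _ _ ihf ihh =>
    obtain ⟨ψ, h1, h2, h3⟩ := ihf
    obtain ⟨χ, h4, h5, h6⟩ := ihh
    refine ⟨fun σ j => (χ σ j).bind (ψ σ),
      Partrec.bind h4 (h1.comp (Computable.fst.comp Computable.fst) Computable.snd).to₂, ?_, ?_⟩
    · intro n j v hv
      simp only [Part.mem_bind_iff, Part.bind_eq_bind] at hv ⊢
      obtain ⟨a, ha, hb⟩ := hv
      exact ⟨a, h5 _ _ _ ha, h2 _ _ _ hb⟩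
    · intro j v hv
      simp only [Part.mem_bind_iff, Part.bind_eq_bind] at hv ⊢
      obtain ⟨a, ha, hb⟩ := hv
      filter_upwards [h6 _ _ ha, h3 _ _ hb] with n h1 h2
      exact ⟨a, h1, h2⟩
  | @prec f h _ _ ihf ihh =>
    obtain ⟨ψ, h1, h2, h3⟩ := ihf
    obtain ⟨χ, h4, h5, h6⟩ := ihh
    refine ⟨fun σ p => Nat.rec (motive := fun _ => Part ℕ) (ψ σ p.unpair.1)
      (fun y IH => IH.bind fun i => χ σ (Nat.pair p.unpair.1 (Nat.pair y i))) p.unpair.2, ?_, ?_, ?_⟩
    · exact Partrec.nat_rec (f := fun q : List Bool × ℕ => q.2.unpair.2)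
        (g := fun q => ψ q.1 q.2.unpair.1)
        (h := fun q r => χ q.1 (Nat.pair q.2.unpair.1 (Nat.pair r.1 r.2)))
        (Computable.snd.comp (Computable.unpair.comp Computable.snd))
        (h1.comp Computable.fst (Computable.fst.comp (Computable.unpair.comp Computable.snd)))
        (h4.comp (Computable.fst.comp Computable.fst)
          (Primrec₂.natPair.to_comp.comp
            (Computable.fst.comp (Computable.unpair.comp (Computable.snd.comp Computable.fst)))
            (Primrec₂.natPair.to_comp.comp (Computable.fst.comp Computable.snd)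
              (Computable.snd.comp Computable.snd)))).to₂
    · intro n p
      rcases hp : p.unpair with ⟨a, k⟩
      simp only [hp]
      clear hp
      induction k with
      | zero => exact h2 n a
      | succ k ih =>
        intro v hv
        simp only [Part.mem_bind_iff, Part.bind_eq_bind] at hv ih ⊢
        obtain ⟨i, hi, hv⟩ := hv
        exact ⟨i, ih i hi, h5 _ _ _ hv⟩
    · intro p
      rcases hp : p.unpair with ⟨a, k⟩
      simp only [hp]
      clear hp
      induction k with
      | zero => exact h3 a
      | succ k ih =>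
        intro v hv
        simp only [Part.mem_bind_iff, Part.bind_eq_bind] at hv ih ⊢
        obtain ⟨i, hi, hv⟩ := hv
        filter_upwards [ih i hi, h6 _ _ hv] with n h1 h2
        exact ⟨i, h1, h2⟩
  | @rfind f _ ihf =>
    obtain ⟨ψ, h1, h2, h3⟩ := ihf
    refine ⟨fun σ a => Nat.rfind fun n => (ψ σ (Nat.pair a n)).map fun m => decide (m = 0),
      ?_, ?_, ?_⟩
    · exact Partrec.rfind (p := fun (q : List Bool × ℕ) n =>
          (ψ q.1 (Nat.pair q.2 n)).map fun m => decide (m = 0))
        (Partrec.map (h1.comp (Computable.fst.comp Computable.fst)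
          (Primrec₂.natPair.to_comp.comp (Computable.snd.comp Computable.fst) Computable.snd))
          (Primrec.eq.decide.to_comp.comp Computable.snd (Computable.const 0)).to₂).to₂
    · intro n a v hv
      simp only [Nat.mem_rfind, Part.mem_map_iff, Part.map_eq_map] at hv ⊢
      obtain ⟨⟨b, hb, hb'⟩, hv⟩ := hv
      refine ⟨⟨b, h2 _ _ _ hb, hb'⟩, fun {m} hm => ?_⟩
      obtain ⟨c, hc, hc'⟩ := hv hm
      exact ⟨c, h2 _ _ _ hc, hc'⟩
    · intro a v hv
      simp only [Nat.mem_rfind, Part.mem_map_iff, Part.map_eq_map] at hv ⊢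
      obtain ⟨⟨b, hb, hb'⟩, hv⟩ := hv
      have : ∀ᶠ n in atTop, ∀ m ∈ Finset.range v,
          ∃ c ∈ ψ (pre B n) (Nat.pair a m), decide (c = 0) = false := by
        refine (Finset.range v).eventually_all.2 fun m hm => ?_
        obtain ⟨c, hc, hc'⟩ := hv (Finset.mem_range.1 hm)
        filter_upwards [h3 _ _ hc] with n hn
        exact ⟨c, hn, hc'⟩
      filter_upwards [h3 _ _ hb, this] with n h1 h2
      exact ⟨⟨b, h1, hb'⟩, fun {m} hm => h2 m (Finset.mem_range.2 hm)⟩

theorem red_of_recursiveIn {A B : C} (h : Nat.RecursiveIn {chi B} (chi A)) : Red A B := by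
  obtain ⟨ψ, h1, h2, h3⟩ := exists_lim h
  obtain ⟨c, hc⟩ := Nat.Partrec.Code.exists_code.1 h1
  have hc' : ∀ σ i v, v ∈ c.eval (encode ((σ, i) : List Bool × ℕ)) ↔ v ∈ ψ σ i := by
    intro σ i v
    rw [hc]
    simp only [encodek, Part.coe_some, Part.bind_some, Part.mem_map_iff, encode_nat,
      exists_eq_right]
  refine Red.of_search (fun σ i => (Nat.Partrec.Code.evaln σ.length.unpair.2 c
    (encode (σ.take σ.length.unpair.1, i))).map fun v => decide (v = 1)) ?_ ?_ ?_
  · refine Computable.option_map (Nat.Partrec.Code.primrec_evaln.to_comp.comp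
      (Computable.pair (Computable.pair ?_ (Computable.const c)) (Computable.encode.comp
        (Computable.pair ?_ Computable.snd))))
      (Primrec.eq.decide.to_comp.comp Computable.snd (Computable.const 1)).to₂
    · exact Computable.snd.comp (Computable.unpair.comp (Computable.list_length.comp Computable.fst))
    · exact Primrec.list_take.to_comp.comp
        (Computable.fst.comp (Computable.unpair.comp (Computable.list_length.comp Computable.fst)))
        Computable.fst
  · intro n i b hb
    obtain ⟨v, hv, rfl⟩ := Option.map_eq_some_iff.1 hb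
    have := (hc' _ _ _).1 (Nat.Partrec.Code.evaln_sound hv)
    rw [take_pre] at this
    have := h2 _ _ _ this
    simp only [chi, Part.mem_some_iff] at this
    rw [this]
    cases A i <;> rfl
  · intro i
    obtain ⟨l, hl⟩ := (h3 i (A i).toNat (by simp [chi])).exists
    obtain ⟨s, hs⟩ := Nat.Partrec.Code.evaln_complete.1 ((hc' _ _ _).2 hl)
    refine ⟨Nat.pair l s, ?_⟩
    simp only [length_pre, Nat.unpair_pair, take_pre, min_eq_left (Nat.left_le_pair l s)]
    rw [Option.mem_def.1 hs]
    rfl

open Crest.LogicCS.Degrees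

theorem charFun_eq (A : C) : charFun {n | A n = true} = chi A := by
  funext n
  simp only [charFun, chi]
  congr 1
  cases h : A n <;> simp [h]

/-- the degree of a point -/
noncomputable def dg (A : C) : SetDegree := ⟨degOf {n | A n = true}, _, rfl⟩

theorem dg_le {A B : C} : dg A ≤ dg B ↔ Red A B := by
  have : dg A ≤ dg B ↔ TuringReducible (charFun {n | A n = true}) (charFun {n | B n = true}) :=
    Iff.rfl
  rw [this, charFun_eq, charFun_eq]
  exact ⟨fun h => red_of_recursiveIn (RecursiveIn.iff_nat.1 h),
    fun h => RecursiveIn.iff_nat.2 h.recursiveIn⟩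

theorem dg_surj (d : SetDegree) : ∃ A, dg A = d := by
  classical
  obtain ⟨d, S, rfl⟩ := d
  exact ⟨fun n => decide (n ∈ S), by simp [dg]⟩

theorem dg_join_le {A B : C} {d : SetDegree} : dg (join A B) ≤ d ↔ dg A ≤ d ∧ dg B ≤ d := by
  obtain ⟨D, rfl⟩ := dg_surj d
  simp only [dg_le]
  exact ⟨fun h => ⟨(red_join_left A B).trans h, (red_join_right A B).trans h⟩,
    fun h => h.1.join h.2⟩

end Crest.Agent.R292
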