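import Crest.Agent.R292.Char
import Crest.Agent.R292.Baire

/-!
Row 292 (S0441): every automorphism of the degrees is covered by countably many Borel maps.
-/

set_option autoImplicit false

open Filter Set Topology

namespace Crest.Agent.R292

/-! ### closure properties of reducibility -/

theorem Red.of_computable {A D : C} (h : Computable A) : Red A D :=
  Red.of_fun (fun _ i => A i) (h.comp Computable.snd) (fun _ => 0) (Computable.const 0)
    fun _ _ _ => rfl

theorem Red.query {A D : C} (h : Red A D) {q : ℕ → ℕ} (hq : Computable q) :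
    Red (fun i => A (q i)) D :=
  (Red.of_query q hq fun _ => rfl).trans h

theorem computable_two_mul : Computable fun n : ℕ => 2 * n :=
  Primrec.nat_mul.to_comp.comp (Computable.const 2) Computable.id

theorem Red.cond' {A B E D : C} (hA : Red A D) (hB : Red B D) (hE : Red E D) :
    Red (fun i => cond (A i) (B i) (E i)) D := by
  refine Red.trans ?_ (hA.join (hB.join hE))
  have g : ∀ {q : ℕ → ℕ}, Computable q →
      Computable fun p : List Bool × ℕ => p.1.getD (q p.2) false := fun hq =>
    (Primrec.list_getD false).to_comp.comp Computable.fst (hq.comp Computable.snd)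
  have h2 := computable_two_mul
  refine Red.of_fun (fun σ i => cond (σ.getD (2 * i) false) (σ.getD (2 * (2 * i) + 1) false)
    (σ.getD (2 * (2 * i + 1) + 1) false))
    (Computable.cond (g h2) (g (Computable.succ.comp (h2.comp h2)))
      (g (Computable.succ.comp (h2.comp (Computable.succ.comp h2)))))
    (fun i => 2 * (2 * (i + 1))) (h2.comp (h2.comp Computable.succ)) fun i n hn => ?_
  rw [getD_pre _ (by omega), getD_pre _ (by omega), getD_pre _ (by omega)]
  simp

theorem Red.xor' {A B D : C} (hA : Red A D) (hB : Red B D) :
    Red (fun i => xor (A i) (B i)) D := by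
  have := hA.cond' (hB.cond' (Red.of_computable (Computable.const false))
    (Red.of_computable (Computable.const true))) hB
  convert this using 2 with i
  cases A i <;> cases B i <;> rfl

theorem Red.and' {A B D : C} (hA : Red A D) (hB : Red B D) :
    Red (fun i => A i && B i) D := by
  have := hA.cond' hB (Red.of_computable (Computable.const false))
  convert this using 2 with i
  cases A i <;> cases B i <;> rfl

/-! ### two generic copies -/

/-- column -/
def col (B : C) (n : ℕ) : C := fun t => B (Nat.pair n t)

/-- choose the columns according to `Y` -/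
def mix (G : C × C) (Y : C) : C := fun p => cond (Y p.unpair.1) (G.2 p) (G.1 p)

theorem red_mix (G : C × C) (Y : C) : Red (mix G Y) (join Y (join G.1 G.2)) :=
  ((red_join_left _ _).query (Computable.fst.comp Computable.unpair)).cond'
    ((red_join_right _ _).trans (red_join_right _ _))
    ((red_join_left _ _).trans (red_join_right _ _))

theorem red_col_mix (G : C × C) {Y : C} {n : ℕ} (h : Y n = true) : Red (col G.2 n) (mix G Y) :=
  Red.of_query (Nat.pair n) (Primrec₂.natPair.to_comp.comp (Computable.const n) Computable.id)
    fun i => by simp [col, mix, h]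

/-- box -/
def box (u : C × C) (N : ℕ) : Set (C × C) := cyl u.1 N ×ˢ cyl u.2 N

theorem box_mono {u v : C × C} {N M : ℕ} (h : N ≤ M) (hv : v ∈ box u N) : box v M ⊆ box u N :=
  prod_mono (cyl_mono h hv.1) (cyl_mono h hv.2)

theorem mix_mem_cyl {G v : C × C} {M : ℕ} (h : G ∈ box v M) (Y : C) :
    mix G Y ∈ cyl (mix v Y) M := fun p hp => by
  simp only [mix, h.1 p hp, h.2 p hp]

theorem dense_step (Γ : List Bool → List Bool) (m : ℕ) (u : C × C) (N : ℕ) :
    ∃ v M, v ∈ box u N ∧ ∀ G ∈ box v M, ∀ Y, Y m = false → ¬ Op Γ (mix G Y) (col G.2 m) := by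
  classical
  obtain ⟨k, hNk, hmk⟩ : ∃ k, N ≤ k ∧ m < k := ⟨max N (m + 1), le_max_left _ _, by omega⟩
  have key : ∀ S : Set (List Bool), S.Finite → ∃ v M, N ≤ M ∧ v ∈ box u N ∧
      (∀ p, k ≤ p.unpair.1 → v.1 p = v.2 p) ∧
      ∀ G ∈ box v M, ∀ Y, pre Y k ∈ S → Y m = false → ¬ Op Γ (mix G Y) (col G.2 m) := by
    intro S hS
    induction S, hS using Set.Finite.induction_on with
    | empty =>
      refine ⟨(u.1, fun p => if p < N then u.2 p else u.1 p), N, le_rfl,
        ⟨mem_cyl_self _ _, fun p hp => if_pos hp⟩, fun p hp => ?_, fun _ _ _ h => h.elim⟩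
      have := Nat.unpair_left_le p
      exact (if_neg (by omega)).symm
    | @insert η S _ _ ih =>
      obtain ⟨v, M, hNM, hv, hsym, hS⟩ := ih
      by_cases hex : ∃ Y₀, pre Y₀ k = η ∧ ∃ B ∈ cyl (mix v Y₀) M, ∃ n,
          M < (Γ (pre B n)).length
      · obtain ⟨Y₀, hY₀, B, hB, n, hn⟩ := hex
        let p₀ := Nat.pair m M
        have hp₀ : M ≤ p₀ := Nat.right_le_pair m M
        have hp₀' : p₀.unpair.1 = m := by simp [p₀]
        let v' : C × C :=
          (fun p => if k ≤ p.unpair.1 ∨ Y₀ p.unpair.1 = false then B p else v.1 p,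
            fun p => if p = p₀ then !(Γ (pre B n))[M] else
              if k ≤ p.unpair.1 ∨ Y₀ p.unpair.1 = true then B p else v.2 p)
        have hv' : v' ∈ box v M := by
          refine ⟨fun p hp => ?_, fun p hp => ?_⟩
          · simp only [v']
            split_ifs with h
            · rw [hB p hp, mix]
              rcases h with h | h
              · rw [← hsym p h]; simp
              · simp [h]
            · rfl
          · simp only [v']
            rw [if_neg (by omega)]
            split_ifs with h
            · rw [hB p hp, mix]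
              rcases h with h | h
              · rw [hsym p h]; simp
              · simp [h]
            · rfl
        have hM : M ≤ max (p₀ + 1) n := by omega
        refine ⟨v', max (p₀ + 1) n, hNM.trans hM, box_mono hNM hv hv', fun p hp => ?_, ?_⟩
        · have : p ≠ p₀ := by rintro rfl; omega
          simp [v', hp, this]
        · rintro G hG Y (hY | hY) hm hop
          · have hYY : ∀ i < k, Y i = Y₀ i := pre_eq_iff.1 (hY.trans hY₀.symm)
            have e : pre (mix G Y) n = pre B n := by
              refine pre_congr fun p hp => ?_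
              rw [mix_mem_cyl hG Y p (by omega), mix]
              by_cases h : k ≤ p.unpair.1
              · have : p ≠ p₀ := by rintro rfl; omega
                simp [v', h, this]
              · rw [hYY _ (by omega)]
                rcases hb : Y₀ p.unpair.1 with - | -
                · simp [v', hb]
                · have : p ≠ p₀ := by
                    rintro rfl
                    rw [hp₀', ← hYY m hmk, hm] at hb
                    cases hb
                  simp [v', hb, this]
            have h1 : (Γ (pre (mix G Y) n))[M]? = some (Γ (pre B n))[M] := by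
              rw [e]; exact List.getElem?_eq_getElem hn
            have h2 := hop.getElem? h1
            have h3 : col G.2 m M = !(Γ (pre B n))[M] := by
              rw [col, hG.2 p₀ (by omega)]
              simp [v']
            rw [h3] at h2
            simp at h2
          · exact hS G (box_mono hM hv' hG) Y hY hm hop
      · refine ⟨v, M, hNM, hv, hsym, ?_⟩
        rintro G hG Y (hY | hY) hm hop
        · obtain ⟨n, hn⟩ := (hop.2.eventually_gt_atTop M).exists
          exact hex ⟨Y, hY, mix G Y, mix_mem_cyl hG Y, n, hn⟩
        · exact hS G hG Y hY hm hop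
  obtain ⟨v, M, -, h1, -, h2⟩ := key _ (List.finite_length_eq Bool k)
  exact ⟨v, M, h1, fun G hG Y => h2 G hG Y (length_pre Y k)⟩

theorem exists_generic : ∃ G : C × C, ∀ Y n, Red (col G.2 n) (mix G Y) ↔ Y n = true := by
  have h : ∀ (Γ : {Γ : List Bool → List Bool // Computable Γ}) (m : ℕ),
      ∀ᶠ G in residual (C × C), ∀ Y, Y m = false → ¬ Op Γ.1 (mix G Y) (col G.2 m) := by
    intro Γ m
    refine mem_of_superset (residual_of_dense_open isOpen_interior
      (dense_iff_inter_open.2 fun W hW ⟨u, hu⟩ => ?_)) interior_subset
    obtain ⟨N, hN⟩ := exists_cyl_prod_subset hW hu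
    obtain ⟨v, M, h1, h2⟩ := dense_step Γ.1 m u N
    exact ⟨v, hN h1, mem_interior.2 ⟨box v M, h2, (isOpen_cyl _ _).prod (isOpen_cyl _ _),
      mem_cyl_self _ _, mem_cyl_self _ _⟩⟩
  obtain ⟨G, -, hG⟩ := ((freq_open isOpen_univ univ_nonempty).and_eventually
    (eventually_countable_forall.2 fun Γ => eventually_countable_forall.2 (h Γ))).exists
  refine ⟨G, fun Y n => ⟨fun ⟨Γ, h1, h2⟩ => ?_, red_col_mix G⟩⟩
  by_contra hn
  exact hG ⟨Γ, h1⟩ n Y (by simpa using hn) h2

/-! ### measurability -/

section meas

variable {X : Type} [MeasurableSpace X] {f g : X → C}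

theorem meas_pre (hf : Measurable f) (Q : List Bool → Prop) (n : ℕ) :
    Measurable fun x => Q (pre (f x) n) := by
  have : IsOpen {B : C | Q (pre B n)} := isOpen_iff_forall_mem_open.2 fun B hB =>
    ⟨cyl B n, fun B' hB' => by simpa only [mem_ofPred_eq, pre_congr hB'] using hB,
      isOpen_cyl B n, mem_cyl_self B n⟩
  exact (measurableSet_setOfPred.1 this.measurableSet).comp hf

theorem meas_op (Γ : List Bool → List Bool) (hf : Measurable f) (hg : Measurable g) :
    Measurable fun x => Op Γ (f x) (g x) := by
  have : ∀ B A, Op Γ B A ↔ (∀ n σ, pre B n = σ → Γ σ = pre A (Γ σ).length) ∧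
      ∀ l, ∃ n₀, ∀ n, n₀ ≤ n → l ≤ (Γ (pre B n)).length := by
    intro B A
    simp only [Op, App, tendsto_atTop_atTop, forall_eq']
  simp only [this]
  refine Measurable.and (Measurable.forall fun n => Measurable.forall fun σ => Measurable.imp
    (meas_pre hf (· = σ) n) (meas_pre hg (Γ σ = ·) _)) (Measurable.forall fun l =>
      Measurable.exists fun n₀ => Measurable.forall fun n => Measurable.imp measurable_const
        (meas_pre hf (fun σ => l ≤ (Γ σ).length) n))

theorem meas_red (hf : Measurable f) (hg : Measurable g) : Measurable fun x => Red (g x) (f x) := by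
  have : ∀ A B, Red A B ↔ ∃ Γ : {Γ : List Bool → List Bool // Computable Γ}, Op Γ.1 B A :=
    fun A B => ⟨fun ⟨Γ, h1, h2⟩ => ⟨⟨Γ, h1⟩, h2⟩, fun ⟨Γ, h⟩ => ⟨Γ.1, Γ.2, h⟩⟩
  simp only [this]
  exact Measurable.exists fun Γ => meas_op Γ.1 hf hg

theorem meas_decide {P : X → Prop} [DecidablePred P] (h : Measurable P) :
    Measurable fun x => decide (P x) :=
  measurable_to_bool (by simpa [preimage] using measurableSet_setOfPred.2 h)

theorem meas_join (hf : Measurable f) (hg : Measurable g) :
    Measurable fun x => join (f x) (g x) := by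
  refine measurable_pi_iff.2 fun n => ?_
  simp only [join]
  cases n.bodd
  · exact (measurable_pi_apply _).comp hf
  · exact (measurable_pi_apply _).comp hg

open Classical in
/-- output of an operator -/
noncomputable def out (Γ : List Bool → List Bool) (B : C) : C :=
  fun i => decide (∃ n, (Γ (pre B n))[i]? = some true)

theorem Op.out_eq {Γ : List Bool → List Bool} {B A : C} (h : Op Γ B A) : out Γ B = A := by
  funext i
  rcases hA : A i with - | -
  · simp only [out, decide_eq_false_iff_not, not_exists]
    intro n hn
    have := App.getElem? h hn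
    simp [hA] at this
  · simp only [out, decide_eq_true_eq]
    exact hA ▸ App.exists_getElem? h i

theorem meas_out (Γ : List Bool → List Bool) (hf : Measurable f) :
    Measurable fun x => out Γ (f x) := by
  classical
  exact measurable_pi_iff.2 fun i => meas_decide
    (Measurable.exists fun n => meas_pre hf (fun σ => (Γ σ)[i]? = some true) n)

end meas

open Crest.LogicCS.Degrees

/-- computable operators -/
abbrev Ops : Type := {Γ : List Bool → List Bool // Computable Γ}

theorem exists_cover (π : SetDegree ≃o SetDegree) :
    ∃ Φ : Ops → C → C, (∀ e, Measurable (Φ e)) ∧ ∀ X, ∃ e, dg (Φ e X) = π (dg X) := by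
  classical
  obtain ⟨G, hG⟩ := exists_generic
  obtain ⟨Q, hQ⟩ := dg_surj (π.symm (dg (join G.1 G.2)))
  choose H hH using fun n => dg_surj (π.symm (dg (col G.2 n)))
  refine ⟨fun e X n => decide (Red (H n) (out e.1 (join X Q))), fun e =>
    measurable_pi_iff.2 fun n => meas_decide (meas_red (meas_out e.1
      (meas_join measurable_id measurable_const)) measurable_const), fun X => ?_⟩
  obtain ⟨Y, hY⟩ := dg_surj (π (dg X))
  obtain ⟨R, hR⟩ := dg_surj (π.symm (dg (mix G Y)))
  have h1 : Red R (join X Q) := by
    rw [← dg_le, hR, π.symm_apply_le]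
    refine (dg_le.2 (red_mix G Y)).trans (dg_join_le.2 ⟨?_, ?_⟩)
    · rw [hY]; exact π.monotone (dg_le.2 (red_join_left _ _))
    · rw [← π.symm_apply_le, ← hQ]; exact dg_le.2 (red_join_right _ _)
  obtain ⟨Γ, hΓ, h2⟩ := h1
  refine ⟨⟨Γ, hΓ⟩, ?_⟩
  rw [← hY]
  congr 1
  funext n
  have : Red (H n) R ↔ Y n = true := by
    rw [← dg_le, hH, hR, π.symm.le_iff_le, dg_le, hG]
  simp [h2.out_eq, this]

end Crest.Agent.R292
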