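import Crest.Agent.R292.Act

/-!
Row 292 (S0441): rigidity of the Turing degrees.
-/

set_option autoImplicit false

open Filter Set Topology

namespace Crest.Agent.R292

open Crest.LogicCS.Degrees

/-- the dynamical core: `y` is computable from `φ x` and `φ aᵢ` -/
theorem core {φ ψ : C → C} (hφ : Measurable φ) (y : C) {Δ Δ' : List Bool → List Bool}
    (hΔ : Computable Δ) (hΔ' : Computable Δ') {v w : C} {N : ℕ} {I : Set C}
    (hI : ∀ᶠ x in residual C, x ∈ cyl v N → x ∈ I) (hinj : InjOn φ I) :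
    ∃ v₁ ∈ cyl v N, ∃ w₀ ∈ cyl w N, ∃ w₁ ∈ cyl w N, ∃ w₂ ∈ cyl w N, ∃ L M, N ≤ M ∧
      ∀ a₀ ∈ cyl w₀ M, ∀ a₁ ∈ cyl w₁ M, ∀ a₂ ∈ cyl w₂ M,
      (∀ a ∈ ({a₀, a₁, a₂} : Set C), ∀ᶠ x in residual C, x ∈ cyl v N →
        Op Δ (join (φ x) (φ a)) (ψ (F y a x)) ∧ Op Δ' (join (ψ (F y a x)) (φ a)) (φ x)) →
      ∀ᶠ x in residual C, x ∈ cyl v₁ L → ∀ D, Red (φ x) D → Red (φ a₀) D → Red (φ a₁) D →
        Red (φ a₂) D → Red y D := by
  let k₀ := Nat.pair N 0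
  have hk₀ : N ≤ k₀ := Nat.left_le_pair N 0
  have hflip : ∀ x ∈ cyl v N, flip k₀ x ∈ cyl v N := fun x hx k hk => by
    have : k ≠ k₀ := by omega
    simp [flip_apply, this, hx k hk]
  have h1 : ∃ᶠ x in residual C, ∃ q : ℕ × Bool,
      (φ x q.1 = q.2 ∧ φ (flip k₀ x) q.1 = !q.2) ∧ x ∈ cyl v N := by
    refine ((freq_cyl v N).and_eventually (hI.and (ev_homeo (flip k₀) hI))).mono ?_
    rintro x ⟨hx, h1, h2⟩
    have : φ (flip k₀ x) ≠ φ x := fun h => flip_ne k₀ x (hinj (h2 (hflip x hx)) (h1 hx) h)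
    obtain ⟨m, hm⟩ := Function.ne_iff.1 this
    exact ⟨(m, φ x m), ⟨rfl, Bool.eq_not_of_ne hm⟩, hx⟩
  obtain ⟨⟨m, β⟩, h2⟩ := freq_exists h1
  have hm : MeasurableSet {x : C | φ x m = β ∧ φ (flip k₀ x) m = !β} :=
    (((measurable_pi_apply m).comp hφ) (measurableSet_singleton β)).inter
      (((measurable_pi_apply m).comp (hφ.comp (flip k₀).continuous.measurable))
        (measurableSet_singleton (!β)))
  obtain ⟨v₁, hv₁, L, hNL, hW⟩ := loc_cyl hm h2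
  let w₀ : C := fun k => if k = 2 * N ∨ k = 2 * N + 1 then false else w k
  let w₁ : C := fun k => if k = 2 * N then true else w₀ k
  let w₂ : C := fun k => if k = 2 * N + 1 then true else w₀ k
  have hw₀ : w₀ ∈ cyl w N := fun k hk => if_neg (by omega)
  have hw₁ : w₁ ∈ cyl w N := fun k hk => (if_neg (by omega)).trans (hw₀ k hk)
  have hw₂ : w₂ ∈ cyl w N := fun k hk => (if_neg (by omega)).trans (hw₀ k hk)
  refine ⟨v₁, hv₁, w₀, hw₀, w₁, hw₁, w₂, hw₂, L, 2 * L + 2, by omega, ?_⟩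
  intro a₀ ha₀ a₁ ha₁ a₂ ha₂ hE
  have ag : ∀ k, k < 2 * L + 2 → k ≠ 2 * N → k ≠ 2 * N + 1 → a₀ k = a₁ k ∧ a₂ k = a₀ k := by
    intro k h1 h2 h3
    rw [ha₀ k h1, ha₁ k h1, ha₂ k h1]
    simp [w₁, w₂, h2, h3]
  have ag' : ∀ p : ℕ, p < L → p.unpair.1 ≠ N →
      (a₀ (2 * p.unpair.1) = a₁ (2 * p.unpair.1) ∧ a₂ (2 * p.unpair.1) = a₀ (2 * p.unpair.1)) ∧
      a₀ (2 * p.unpair.1 + 1) = a₁ (2 * p.unpair.1 + 1) ∧
        a₂ (2 * p.unpair.1 + 1) = a₀ (2 * p.unpair.1 + 1) := by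
    intro p hp hp'
    have := Nat.unpair_left_le p
    exact ⟨ag _ (by omega) (by omega) (by omega), ag _ (by omega) (by omega) (by omega)⟩
  let g : Fin 3 → C ≃ₜ C := ![st y a₁ a₀, st y a₂ a₀, st y a₀ a₁]
  have hg : ∀ i, ∀ x ∈ cyl v N, g i x ∈ cyl v N := by
    intro i x hx p hp
    have := Nat.unpair_left_le p
    obtain ⟨⟨e1, e2⟩, e3, e4⟩ := ag' p (by omega) (by omega)
    rw [← hx p hp]
    fin_cases i
    · exact Fi_F_col y x e1.symm e3.symm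
    · exact Fi_F_col y x e2 e4
    · exact Fi_F_col y x e1 e3
  obtain ⟨S, hS1, hS2, hS3⟩ := exists_invariant g
    (((hE a₀ (by simp)).and ((hE a₁ (by simp)).and (hE a₂ (by simp)))).and
      (hW.and (ev_homeo (flip k₀) hW)))
  filter_upwards [hS1] with x hxS hx D hD hD₀ hD₁ hD₂
  have hcl : ∀ i, ∀ x ∈ S ∩ cyl v N, g i x ∈ S ∩ cyl v N :=
    fun i x hx => ⟨hS3 i x hx.1, hg i x hx.2⟩
  refine decode_red (S := S ∩ cyl v N) (x := x)
    (impl_of hΔ hΔ' (hcl 0) hD₁ hD₀ (fun x hx => ((hS2 x hx.1).1.2.1 hx.2).1)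
      fun x hx => ((hS2 x hx.1).1.1 hx.2).2)
    (impl_of hΔ hΔ' (hcl 1) hD₂ hD₀ (fun x hx => ((hS2 x hx.1).1.2.2 hx.2).1)
      fun x hx => ((hS2 x hx.1).1.1 hx.2).2)
    (impl_of hΔ hΔ' (hcl 2) hD₀ hD₁ (fun x hx => ((hS2 x hx.1).1.1 hx.2).1)
      fun x hx => ((hS2 x hx.1).1.2.1 hx.2).2)
    ⟨hxS, cyl_mono hNL hv₁ hx⟩ hD m L β fun j hj hmem => ?_
  change word y a₀ a₁ a₂ (j * j) x ∈ S ∩ cyl v N at hmem
  change φ (word y a₀ a₁ a₂ (j * j) x) m = _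
  have hw : ∀ p < L, word y a₀ a₁ a₂ (j * j) x p = xor (x p) (decide (p = k₀) && y j) := by
    intro p hp
    by_cases hpN : p.unpair.1 = N
    · have e : p = Nat.pair N p.unpair.2 := by rw [← hpN, Nat.pair_unpair]
      rw [e, word_col (by rw [ha₀ _ (by omega)]; simp [w₀]) (by rw [ha₀ _ (by omega)]; simp [w₀])
        (by rw [ha₁ _ (by omega)]; simp [w₁]) (by rw [ha₁ _ (by omega)]; simp [w₁, w₀])
        (by rw [ha₂ _ (by omega)]; simp [w₂, w₀]) (by rw [ha₂ _ (by omega)]; simp [w₂])]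
      by_cases h0 : p.unpair.2 = 0
      · rw [h0, yt_zero]; simp [k₀]
      · have := Nat.unpair_right_le p
        rw [yt_pos y h0 (by omega)]
        simp [k₀, h0]
    · obtain ⟨⟨e1, e2⟩, e3, e4⟩ := ag' p hp hpN
      have : p ≠ k₀ := by rintro rfl; simp [k₀] at hpN
      rw [word_fix e1 e3 e2 e4]
      simp [this]
  rcases hy : y j with - | -
  · have : word y a₀ a₁ a₂ (j * j) x ∈ cyl v₁ L := fun p hp => by
      rw [hw p hp, hy, ← hx p hp]; simp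
    rw [((hS2 _ hmem.1).2.1 this).1]; simp
  · have : flip k₀ (word y a₀ a₁ a₂ (j * j) x) ∈ cyl v₁ L := fun p hp => by
      rw [flip_apply, hw p hp, hy, ← hx p hp]; simp
    have := ((hS2 _ hmem.1).2.2 this).2
    rw [flip_flip] at this
    rw [this]; simp

theorem map_join (π : SetDegree ≃o SetDegree) {A B A' B' X : C} (hA : dg A' = π (dg A))
    (hB : dg B' = π (dg B)) (hX : Red X (join A B)) : π (dg X) ≤ dg (join A' B') := by
  rw [← π.le_symm_apply]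
  refine (dg_le.2 hX).trans (dg_join_le.2 ⟨?_, ?_⟩)
  · rw [π.le_symm_apply, ← hA]; exact dg_le.2 (red_join_left _ _)
  · rw [π.le_symm_apply, ← hB]; exact dg_le.2 (red_join_right _ _)

theorem symm_le (π : SetDegree ≃o SetDegree) (y : C) : π.symm (dg y) ≤ dg y := by
  obtain ⟨Φ, hΦ, cΦ⟩ := exists_cover π
  obtain ⟨Φ', hΦ', cΦ'⟩ := exists_cover π.symm
  have h1 : ∃ᶠ x in residual C, ∃ q : Ops × Ops × Ops,
      dg (Φ q.1 (join x y)) = π (dg (join x y)) ∧ Op q.2.2.1 (Φ' q.2.1 (Φ q.1 (join x y))) x := by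
    refine (freq_cyl y 0).mono fun x _ => ?_
    obtain ⟨e, he⟩ := cΦ (join x y)
    obtain ⟨e', he'⟩ := cΦ' (Φ e (join x y))
    rw [he, π.symm_apply_apply] at he'
    obtain ⟨Γ, hΓ, h⟩ : Red x (Φ' e' (Φ e (join x y))) := by
      rw [← dg_le, he']; exact dg_le.2 (red_join_left _ _)
    exact ⟨(e, e', ⟨Γ, hΓ⟩), he, h⟩
  obtain ⟨⟨e, e', Θ⟩, h2⟩ := freq_exists h1
  let φ : C → C := fun x => Φ e (join x y)
  have hφ : Measurable φ := (hΦ e).comp (meas_join measurable_id measurable_const)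
  let I : Set C := {x | Op Θ.1 (Φ' e' (φ x)) x}
  have hIm : MeasurableSet I :=
    measurableSet_setOfPred.2 (meas_op Θ.1 ((hΦ' e').comp hφ) measurable_id)
  have hinj : InjOn φ I := fun x hx x' hx' h => by
    have h1 : Op Θ.1 (Φ' e' (φ x)) x := hx
    have h2 : Op Θ.1 (Φ' e' (φ x')) x' := hx'
    rw [← h] at h2
    exact App.unique h1 h2
  obtain ⟨u₀, N₀, hA⟩ := exists_everywhere h2
  have hA' : ∀ v ∈ cyl u₀ N₀, ∀ M, ∃ᶠ x in residual C,
      dg (φ x) = π (dg (join x y)) ∧ x ∈ cyl v M :=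
    fun v hv M => (hA v hv M).mono fun x hx => ⟨hx.1.1, hx.2⟩
  obtain ⟨u₁, hu₁, N₁, hN₁, hI⟩ := loc_cyl hIm
    ((hA u₀ (mem_cyl_self _ _) N₀).mono fun x hx => ⟨hx.1.2, hx.2⟩)
  have h3 : ∃ᶠ p in residual (C × C), ∃ q : Ops × Ops × Ops,
      (Op q.2.1.1 (join (φ p.1) (φ p.2)) (Φ q.1 (join (F y p.2 p.1) y)) ∧
        Op q.2.2.1 (join (Φ q.1 (join (F y p.2 p.1) y)) (φ p.2)) (φ p.1)) ∧
      p ∈ cyl u₁ N₁ ×ˢ cyl u₁ N₁ := by
    refine (freq_prod (hA' u₁ hu₁ N₁) (hA' u₁ hu₁ N₁)).mono ?_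
    rintro ⟨x, a⟩ ⟨⟨hx, hx'⟩, ha, ha'⟩
    obtain ⟨e₃, he₃⟩ := cΦ (join (F y a x) y)
    have l1 : ∀ A B : C, Red A (join (join A y) (join B y)) := fun A B =>
      (red_join_left _ _).trans (red_join_left _ _)
    have l2 : ∀ A B : C, Red B (join (join A y) (join B y)) := fun A B =>
      (red_join_left _ _).trans (red_join_right _ _)
    have l3 : ∀ A B : C, Red y (join (join A y) (join B y)) := fun A B =>
      (red_join_right _ _).trans (red_join_right _ _)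
    obtain ⟨Δ, hΔ, h⟩ : Red (Φ e₃ (join (F y a x) y)) (join (φ x) (φ a)) := by
      rw [← dg_le, he₃]
      exact map_join π hx ha ((red_F (l3 _ _) (l2 _ _) (l1 _ _)).join (l3 _ _))
    obtain ⟨Δ', hΔ', h'⟩ : Red (φ x) (join (Φ e₃ (join (F y a x) y)) (φ a)) := by
      rw [← dg_le, hx]
      refine map_join π he₃ ha (Red.join ?_ (l3 _ _))
      have := red_Fi (l3 (F y a x) a) (l2 _ _) (l1 _ _)
      rwa [Fi_F] at this
    exact ⟨(e₃, ⟨Δ, hΔ⟩, ⟨Δ', hΔ'⟩), ⟨h, h'⟩, hx', ha'⟩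
  obtain ⟨⟨e₃, Δ, Δ'⟩, h4⟩ := freq_exists h3
  let ψ : C → C := fun z => Φ e₃ (join z y)
  have hψ : Measurable fun p : C × C => ψ (F y p.2 p.1) :=
    (hΦ e₃).comp (meas_join (meas_F y) measurable_const)
  have hEm : MeasurableSet {p : C × C | Op Δ.1 (join (φ p.1) (φ p.2)) (ψ (F y p.2 p.1)) ∧
      Op Δ'.1 (join (ψ (F y p.2 p.1)) (φ p.2)) (φ p.1)} :=
    measurableSet_setOfPred.2 ((meas_op _ (meas_join (hφ.comp measurable_fst)
      (hφ.comp measurable_snd)) hψ).and (meas_op _ (meas_join hψ (hφ.comp measurable_snd))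
        (hφ.comp measurable_fst)))
  obtain ⟨v, hv, w, hw, N, hN, hE⟩ := loc_cyl_prod hEm h4
  obtain ⟨v₁, hv₁, w₀, hw₀, w₁, hw₁, w₂, hw₂, L, M, hM, key⟩ :=
    core (ψ := ψ) hφ y Δ.2 Δ'.2 (v := v) (w := w) (N := N)
      (hI.mono fun x hx hx' => hx (cyl_mono hN hv hx')) hinj
  have sub : ∀ {z t : C}, z ∈ cyl u₁ N₁ → t ∈ cyl z N → t ∈ cyl u₀ N₀ := fun hz ht =>
    cyl_mono hN₁ hu₁ (cyl_mono hN hz ht)
  obtain ⟨Z, hZ⟩ := dg_surj (π.symm (dg y))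
  rw [← hZ, dg_le]
  refine red_of_frequently (((hA' w₀ (sub hw hw₀) M).and_eventually hE).mono ?_)
  rintro a₀ ⟨⟨d₀, c₀⟩, E₀⟩
  refine red_of_frequently (((hA' w₁ (sub hw hw₁) M).and_eventually hE).mono ?_)
  rintro a₁ ⟨⟨d₁, c₁⟩, E₁⟩
  refine red_of_frequently (((hA' w₂ (sub hw hw₂) M).and_eventually hE).mono ?_)
  rintro a₂ ⟨⟨d₂, c₂⟩, E₂⟩
  have key' := key a₀ c₀ a₁ c₁ a₂ c₂ (by
    rintro a (rfl | rfl | rfl)
    · exact E₀ (cyl_mono hM hw₀ c₀)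
    · exact E₁ (cyl_mono hM hw₁ c₁)
    · exact E₂ (cyl_mono hM hw₂ c₂))
  refine red_of_frequently (((hA' v₁ (sub hv hv₁) L).and_eventually key').mono ?_)
  rintro x ⟨⟨d, c⟩, hx⟩
  obtain ⟨D, hD⟩ := dg_surj (π (dg (join (join (join (join y a₀) a₁) a₂) x)))
  have r0 : Red y (join (join (join (join y a₀) a₁) a₂) x) :=
    (((red_join_left _ _).trans (red_join_left _ _)).trans (red_join_left _ _)).trans
      (red_join_left _ _)
  have hred : ∀ a, dg (φ a) = π (dg (join a y)) →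
      Red a (join (join (join (join y a₀) a₁) a₂) x) → Red (φ a) D := fun a h1 h2 => by
    rw [← dg_le, h1, hD]
    exact π.monotone (dg_le.2 (h2.join r0))
  have := hx c D (hred x d (red_join_right _ _))
    (hred a₀ d₀ ((((red_join_right _ _).trans (red_join_left _ _)).trans
      (red_join_left _ _)).trans (red_join_left _ _)))
    (hred a₁ d₁ (((red_join_right _ _).trans (red_join_left _ _)).trans (red_join_left _ _)))
    (hred a₂ d₂ ((red_join_right _ _).trans (red_join_left _ _)))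
  rw [← dg_le, hZ, π.symm_apply_le, ← hD]
  exact dg_le.2 this

theorem rigid (π : SetDegree ≃o SetDegree) : π = OrderIso.refl SetDegree := by
  ext1
  funext d
  obtain ⟨y, rfl⟩ := dg_surj d
  exact le_antisymm (symm_le π.symm y) (π.symm_apply_le.1 (symm_le π y))

end Crest.Agent.R292
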