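import Mathlib

/-!
Row 292 (S0441): Turing reducibility between points of Cantor space through computable operators
on finite strings.
-/

set_option autoImplicit false

open Filter

namespace Crest.Agent.R292

/-- Cantor space -/
abbrev C : Type := ℕ → Bool

/-- initial segment -/
def pre (B : C) (n : ℕ) : List Bool := (List.range n).map B

@[simp] theorem length_pre (B : C) (n : ℕ) : (pre B n).length = n := by simp [pre]

theorem pre_succ (B : C) (n : ℕ) : pre B (n + 1) = pre B n ++ [B n] := by
  simp [pre, List.range_succ]

@[simp] theorem pre_zero (B : C) : pre B 0 = [] := rfl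

theorem getElem?_pre (B : C) (n i : ℕ) : (pre B n)[i]? = if i < n then some (B i) else none := by
  split_ifs with h
  · simp [pre, h]
  · simp [pre, h]

theorem getD_pre (B : C) {n i : ℕ} (h : i < n) (d : Bool) : (pre B n).getD i d = B i := by
  rw [List.getD_eq_getElem?_getD, getElem?_pre, if_pos h]; rfl

theorem take_pre (B : C) (l n : ℕ) : (pre B n).take l = pre B (min l n) := by
  simp [pre, ← List.map_take, List.take_range]

theorem pre_congr {A B : C} {n : ℕ} (h : ∀ i < n, A i = B i) : pre A n = pre B n :=
  List.map_congr_left fun i hi => h i (List.mem_range.1 hi)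

theorem pre_eq_iff {A B : C} {n : ℕ} : pre A n = pre B n ↔ ∀ i < n, A i = B i := by
  refine ⟨fun h i hi => ?_, pre_congr⟩
  rw [← getD_pre A hi false, h, getD_pre B hi]

/-- `t` is a sequence of longer and longer initial segments of `A` -/
def App (A : C) (t : ℕ → List Bool) : Prop :=
  (∀ n, t n = pre A (t n).length) ∧ Tendsto (fun n => (t n).length) atTop atTop

theorem App.of_len {A : C} {t : ℕ → List Bool} (l : ℕ → ℕ) (hl : Tendsto l atTop atTop)
    (h : ∀ n, t n = pre A (l n)) : App A t := by
  have : ∀ n, (t n).length = l n := fun n => by rw [h n, length_pre]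
  exact ⟨fun n => by rw [this, h], by simpa only [this] using hl⟩

theorem app_pre (A : C) : App A (pre A) := App.of_len id tendsto_id fun _ => rfl

theorem App.getElem? {A : C} {t : ℕ → List Bool} (h : App A t) {n i : ℕ} {b : Bool}
    (hb : (t n)[i]? = some b) : b = A i := by
  rw [h.1 n, getElem?_pre] at hb
  split_ifs at hb
  exact (Option.some.inj hb).symm

theorem App.exists_getElem? {A : C} {t : ℕ → List Bool} (h : App A t) (i : ℕ) :
    ∃ n, (t n)[i]? = some (A i) := by
  obtain ⟨n, hn⟩ := (h.2.eventually_gt_atTop i).exists
  exact ⟨n, by rw [h.1 n, getElem?_pre, if_pos hn]⟩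

theorem App.unique {A A' : C} {t : ℕ → List Bool} (h : App A t) (h' : App A' t) : A = A' := by
  funext i
  obtain ⟨n, hn⟩ := h.exists_getElem? i
  exact h'.getElem? hn

/-- the string operator `Γ` maps `B` to `A` -/
def Op (Γ : List Bool → List Bool) (B A : C) : Prop := App A fun n => Γ (pre B n)

theorem App.op {B A : C} {t : ℕ → List Bool} {Γ : List Bool → List Bool} (h : App B t)
    (hΓ : Op Γ B A) : App A fun n => Γ (t n) := by
  refine App.of_len (fun n => (Γ (pre B (t n).length)).length) (hΓ.2.comp h.2) fun n => ?_
  have := hΓ.1 (t n).length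
  dsimp only at this
  rw [← this, ← h.1]

/-- reducibility -/
def Red (A B : C) : Prop := ∃ Γ, Computable Γ ∧ Op Γ B A

theorem Red.refl (A : C) : Red A A := ⟨id, Computable.id, app_pre A⟩

theorem Red.trans {A B D : C} (h : Red A B) (h' : Red B D) : Red A D := by
  obtain ⟨Γ, h1, h2⟩ := h
  obtain ⟨Δ, h3, h4⟩ := h'
  exact ⟨fun σ => Γ (Δ σ), h1.comp h3, App.op h4 h2⟩

/-! ### building operators from searches -/

/-- first answer along the initial segments -/
def mono (φ : List Bool → ℕ → Option Bool) (σ : List Bool) (i : ℕ) : Option Bool :=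
  Nat.rec (motive := fun _ => Option Bool) none (fun l acc => acc <|> φ (σ.take l) i)
    (σ.length + 1)

theorem computable_mono {φ : List Bool → ℕ → Option Bool} (hφ : Computable₂ φ) :
    Computable₂ (mono φ) := by
  have h1 : Computable₂ fun (p : List Bool × ℕ) (q : ℕ × Option Bool) =>
      (q.2 <|> φ (p.1.take q.1) p.2) :=
    Primrec.option_orElse.to_comp.comp (Computable.snd.comp Computable.snd)
      (hφ.comp (Primrec.list_take.to_comp.comp (Computable.fst.comp Computable.snd)
        (Computable.fst.comp Computable.fst)) (Computable.snd.comp Computable.fst))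
  exact Computable.nat_rec (Computable.succ.comp (Computable.list_length.comp Computable.fst))
    (Computable.const none) h1

theorem rec_orElse_sound (f : ℕ → Option Bool) (k : ℕ) (b : Bool)
    (h : Nat.rec (motive := fun _ => Option Bool) none (fun l acc => acc <|> f l) k = some b) :
    ∃ l, f l = some b := by
  induction k with
  | zero => simp at h
  | succ k ih =>
    simp only [Option.orElse_eq_orElse, Option.orElse_eq_or, Option.or_eq_some_iff] at h ih
    rcases h with h | ⟨-, h⟩
    · exact ih h
    · exact ⟨k, h⟩

theorem rec_orElse_isSome (f : ℕ → Option Bool) (k l : ℕ) (hl : l < k) (h : (f l).isSome) :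
    (Nat.rec (motive := fun _ => Option Bool) none (fun l acc => acc <|> f l) k).isSome := by
  induction k with
  | zero => omega
  | succ k ih =>
    simp only [Option.orElse_eq_orElse, Option.orElse_eq_or, Option.isSome_or,
      Bool.or_eq_true] at ih ⊢
    rcases Nat.lt_succ_iff_lt_or_eq.1 hl with h1 | rfl
    · exact Or.inl (ih h1)
    · exact Or.inr h

/-- one step of the string building -/
def bstep (f : ℕ → Option Bool) (acc : List Bool) : List Bool :=
  ((f acc.length).map fun b => acc ++ [b]).getD acc

/-- build a string out of answers -/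
def build (φ : List Bool → ℕ → Option Bool) (σ : List Bool) : List Bool :=
  Nat.rec (motive := fun _ => List Bool) [] (fun _ acc => bstep (φ σ) acc) σ.length

theorem computable_build {φ : List Bool → ℕ → Option Bool} (hφ : Computable₂ φ) :
    Computable (build φ) := by
  have h1 : Computable₂ fun (σ : List Bool) (q : ℕ × List Bool) => bstep (φ σ) q.2 :=
    Computable.option_getD
      (Computable.option_map
        (hφ.comp Computable.fst (Computable.list_length.comp (Computable.snd.comp Computable.snd)))
        (Computable.list_concat.comp (Computable.snd.comp (Computable.snd.comp Computable.fst))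
          Computable.snd).to₂)
      (Computable.snd.comp Computable.snd)
  exact Computable.nat_rec Computable.list_length (Computable.const []) h1

theorem build_spec (A : C) (f : ℕ → Option Bool) (hf : ∀ i b, f i = some b → b = A i) (k : ℕ) :
    ∃ m, Nat.rec (motive := fun _ => List Bool) [] (fun _ acc => bstep f acc) k = pre A m ∧
      ∀ l, l ≤ k → (∀ i < l, (f i).isSome) → l ≤ m := by
  induction k with
  | zero => exact ⟨0, rfl, fun l hl _ => hl⟩
  | succ k ih =>
    obtain ⟨m, h1, h2⟩ := ih
    dsimp only
    rw [h1, bstep, length_pre]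
    rcases hm : f m with - | b
    · refine ⟨m, rfl, fun l hl h => ?_⟩
      by_contra hlt
      rcases Nat.eq_zero_or_pos l with rfl | hl0
      · omega
      · have := h m (by omega)
        simp [hm] at this
    · refine ⟨m + 1, by rw [pre_succ, ← hf m b hm]; rfl, fun l hl h => ?_⟩
      rcases Nat.eq_zero_or_pos l with rfl | hl0
      · omega
      · have := h2 (l - 1) (by omega) fun i hi => h i (by omega)
        omega

theorem Red.of_search {A B : C} (φ : List Bool → ℕ → Option Bool) (hφ : Computable₂ φ)
    (h1 : ∀ n i b, φ (pre B n) i = some b → b = A i) (h2 : ∀ i, ∃ n, (φ (pre B n) i).isSome) :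
    Red A B := by
  have s1 : ∀ n i b, mono φ (pre B n) i = some b → b = A i := by
    intro n i b h
    obtain ⟨l, hl⟩ := rec_orElse_sound (fun l => φ ((pre B n).take l) i) ((pre B n).length + 1) b h
    rw [take_pre] at hl
    exact h1 _ _ _ hl
  have s2 : ∀ i, ∀ᶠ n in atTop, (mono φ (pre B n) i).isSome := by
    intro i
    obtain ⟨l, hl⟩ := h2 i
    filter_upwards [eventually_ge_atTop l] with n hn
    refine rec_orElse_isSome (fun l => φ ((pre B n).take l) i) ((pre B n).length + 1) l
      (by simp; omega) ?_
    rwa [take_pre, min_eq_left hn]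
  choose m hm1 hm2 using fun n => build_spec A (mono φ (pre B n)) (s1 n) n
  refine ⟨build (mono φ), computable_build (computable_mono hφ), App.of_len m ?_ fun n => ?_⟩
  · refine tendsto_atTop.2 fun l => ?_
    have : ∀ᶠ n in atTop, ∀ i ∈ Finset.range l, (mono φ (pre B n) i).isSome :=
      (Finset.range l).eventually_all.2 fun i _ => s2 i
    filter_upwards [this, eventually_ge_atTop l] with n h hn
    exact hm2 n l hn fun i hi => h i (Finset.mem_range.2 hi)
  · rw [build, length_pre, hm1]

/-- bounded use -/
theorem Red.of_fun {A B : C} (φ : List Bool → ℕ → Bool) (hφ : Computable₂ φ) (u : ℕ → ℕ)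
    (hu : Computable u) (h : ∀ i n, u i ≤ n → φ (pre B n) i = A i) : Red A B := by
  refine Red.of_search (fun σ i => cond (decide (u i ≤ σ.length)) (some (φ σ i)) none) ?_ ?_ ?_
  · exact Computable.cond
      (Primrec.nat_le.decide.to_comp.comp (hu.comp Computable.snd)
        (Computable.list_length.comp Computable.fst))
      (Computable.option_some.comp hφ) (Computable.const none)
  · intro n i b hb
    by_cases hn : u i ≤ n
    · simp only [length_pre, hn, decide_true, cond_true, Option.some.injEq] at hb
      rw [← hb, h i n hn]
    · simp [hn] at hb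
  · exact fun i => ⟨u i, by simp⟩

/-- one query -/
theorem Red.of_query {A B : C} (q : ℕ → ℕ) (hq : Computable q) (h : ∀ i, A i = B (q i)) :
    Red A B :=
  Red.of_fun (fun σ i => σ.getD (q i) false)
    ((Primrec.list_getD false).to_comp.comp Computable.fst (hq.comp Computable.snd))
    (fun i => q i + 1) (Computable.succ.comp hq) fun i n hn => by rw [getD_pre B hn, h]

/-! ### joins -/

/-- join of two points -/
def join (A B : C) : C := fun n => cond n.bodd (B n.div2) (A n.div2)

@[simp] theorem join_even (A B : C) (n : ℕ) : join A B (2 * n) = A n := by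
  simp [join, Nat.div2_val]

@[simp] theorem join_odd (A B : C) (n : ℕ) : join A B (2 * n + 1) = B n := by
  have : (2 * n + 1) / 2 = n := by omega
  simp [join, Nat.div2_val, this]

/-- join of two strings -/
def ljoin (σ τ : List Bool) : List Bool :=
  (List.range (2 * min σ.length τ.length)).map fun n =>
    cond n.bodd (τ.getD n.div2 false) (σ.getD n.div2 false)

theorem primrec_ljoin : Primrec₂ ljoin :=
  Primrec.list_map
    (Primrec.list_range.comp (Primrec.nat_mul.comp (Primrec.const 2)
      (Primrec.nat_min.comp (Primrec.list_length.comp Primrec.fst)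
        (Primrec.list_length.comp Primrec.snd))))
    (Primrec.cond (Primrec.nat_bodd.comp Primrec.snd)
      ((Primrec.list_getD false).comp (Primrec.snd.comp Primrec.fst)
        (Primrec.nat_div2.comp Primrec.snd))
      ((Primrec.list_getD false).comp (Primrec.fst.comp Primrec.fst)
        (Primrec.nat_div2.comp Primrec.snd))).to₂

theorem ljoin_pre (A B : C) (n m : ℕ) :
    ljoin (pre A n) (pre B m) = pre (join A B) (2 * min n m) := by
  rw [ljoin, length_pre, length_pre]
  refine List.map_congr_left fun i hi => ?_
  have hi' := List.mem_range.1 hi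
  have h1 : i.div2 < n := by rw [Nat.div2_val]; omega
  have h2 : i.div2 < m := by rw [Nat.div2_val]; omega
  rw [getD_pre A h1, getD_pre B h2, join]

theorem App.join {A B : C} {s t : ℕ → List Bool} (hs : App A s) (ht : App B t) :
    App (join A B) fun n => ljoin (s n) (t n) := by
  refine App.of_len (fun n => 2 * min (s n).length (t n).length) ?_ fun n => ?_
  · refine tendsto_atTop.2 fun l => ?_
    filter_upwards [hs.2.eventually_ge_atTop l, ht.2.eventually_ge_atTop l] with n h1 h2
    omega
  · rw [← ljoin_pre, ← hs.1, ← ht.1]

theorem red_join_left (A B : C) : Red A (join A B) :=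
  Red.of_query (fun n => 2 * n) (Primrec.nat_mul.to_comp.comp (Computable.const 2) Computable.id)
    fun i => by simp

theorem red_join_right (A B : C) : Red B (join A B) :=
  Red.of_query (fun n => 2 * n + 1)
    (Computable.succ.comp (Primrec.nat_mul.to_comp.comp (Computable.const 2) Computable.id))
    fun i => by simp

theorem Red.join {A B D : C} (h : Red A D) (h' : Red B D) : Red (join A B) D := by
  obtain ⟨Γ, h1, h2⟩ := h
  obtain ⟨Δ, h3, h4⟩ := h'
  exact ⟨fun σ => ljoin (Γ σ) (Δ σ), primrec_ljoin.to_comp.comp h1 h3, App.join h2 h4⟩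

theorem countable_ops : {Γ : List Bool → List Bool | Computable Γ}.Countable := by
  have : ∀ Γ : {Γ : List Bool → List Bool | Computable Γ}, ∃ c : Nat.Partrec.Code,
      c.eval = fun n => Part.bind (Encodable.decode (α := List Bool) n)
        fun a => (Part.some (Γ.1 a)).map Encodable.encode :=
    fun Γ => Nat.Partrec.Code.exists_code.1 Γ.2
  choose c hc using this
  refine Function.Injective.countable (f := c) fun Γ Δ h => ?_
  have h1 := (hc Γ).symm.trans (h ▸ hc Δ)
  ext1
  funext σ
  have := congrFun h1 (Encodable.encode σ)
  simpa using this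

end Crest.Agent.R292
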